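import Vale.Agent.P084.W84.Seg

/-! `E × F` with the sup norm has the Mazur-Ulam property if `E` is three-dimensional; `F` ARBITRARY. -/

namespace Vale.Agent.P084

open Metric Set

set_option linter.unusedSectionVars false

universe u v w

variable {E : Type u} {F : Type v} {W : Type w}
  [NormedAddCommGroup E] [NormedSpace ℝ E] [NormedAddCommGroup F] [NormedSpace ℝ F]
  [NormedAddCommGroup W] [NormedSpace ℝ W]

/-- WD1.  `mem_faceDir`: `‖a ± δ • z‖ ≤ 1`, so `1 ± δ φ z = φ (a ± δ • z) ≤ 1`, so `φ z = 0`. -/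
lemma faceDir_ker {a : E} (ha : ‖a‖ = 1) (φ : E →L[ℝ] ℝ) (hφ : ∀ z, φ z ≤ ‖z‖) (hφa : φ a = 1)
    {z : E} (hz : z ∈ faceDir a) : φ z = 0 := by
  obtain ⟨δ, hδ, h1, h2⟩ := mem_faceDir.1 hz
  rw [ha] at h1 h2
  have e1 := (hφ (a + δ • z)).trans h1
  have e2 := (hφ (a - δ • z)).trans h2
  rw [map_add, map_smul, hφa, smul_eq_mul] at e1
  rw [map_sub, map_smul, hφa, smul_eq_mul] at e2
  have h3 : δ * φ z = 0 := by linarith
  rcases mul_eq_zero.1 h3 with h | h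
  · exact absurd h hδ.ne'
  · exact h

/-- WD2.  A dual vector `φ` of `a` (`exists_dual_vector`) and `faceDir_ker`: `a ∉ faceDir a`, so
`faceDir a ≠ ⊤`; `Submodule.finrank_lt`. -/
lemma finrank_faceDir_lt [FiniteDimensional ℝ E] {a : E} (ha : ‖a‖ = 1) :
    Module.finrank ℝ (faceDir a) < Module.finrank ℝ E := by
  have ha0 : ‖a‖ ≠ 0 := by
    rw [ha]; exact one_ne_zero
  obtain ⟨φ, hφ1, hφa⟩ := exists_dual_vector ℝ a ha0
  have hφ : ∀ z, φ z ≤ ‖z‖ := by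
    intro z
    calc φ z ≤ ‖φ z‖ := le_abs_self _
      _ ≤ ‖φ‖ * ‖z‖ := φ.le_opNorm z
      _ = ‖z‖ := by rw [hφ1, one_mul]
  have hφa' : φ a = 1 := by
    rw [hφa, ha]; simp
  apply Submodule.finrank_lt
  intro htop
  have hmem : a ∈ faceDir a := by rw [htop]; exact Submodule.mem_top
  have := faceDir_ker ha φ hφ hφa' hmem
  rw [hφa'] at this
  exact one_ne_zero this

/-- WD3.  `Submodule.finrank_eq_zero` : `faceDir a = ⊥`, so `e - a = 0`. -/
lemma rot_of_zero [FiniteDimensional ℝ E] {a : E}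
    (hstar : ∀ e : E, ‖e‖ = 1 → ‖a + e‖ = 2 → e - a ∈ faceDir a)
    (h0 : Module.finrank ℝ (faceDir a) = 0) : RotundPt a := by
  intro b hb hab
  have h1 := hstar b hb hab
  rw [Submodule.finrank_eq_zero.1 h0, Submodule.mem_bot] at h1
  exact sub_eq_zero.1 h1

/-- WD4.  `φ` a dual vector of `a`: `φ z ≤ ‖z‖`, `|φ z| ≤ ‖z‖`, `φ a = 1`.  `faceDir a ≤ ker φ` (`faceDir_ker`) and
`finrank (ker φ) + 1 = finrank E` (`LinearMap.finrank_range_add_finrank_ker`, `φ` is onto `ℝ`), so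
`faceDir a = ker φ` (`Submodule.eq_of_le_of_finrank_eq`).  `r` from `faceDir_radius`; `ρ = min (1/2) (r/4)`.  For
`‖v‖ < ρ` put `z = a + v`, `k = φ z = 1 + φ v ≥ 1/2`, `d = k⁻¹ • z - a`; `φ d = 0`,
`d = k⁻¹ • (v - φ v • a)`, `‖d‖ ≤ 2 * (2 ρ) ≤ r`, so `‖a + d‖ = 1`, i.e. `‖z‖ = k`.
(`Flat φ a ρ` means `∀ v, ‖v‖ < ρ → ‖a + v‖ = φ (a + v)`.) -/
lemma flat_of_codim_one [FiniteDimensional ℝ E] {a : E} (ha : ‖a‖ = 1)
    (h : Module.finrank ℝ (faceDir a) + 1 = Module.finrank ℝ E) : FlatPt a := by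
  have ha0 : ‖a‖ ≠ 0 := by
    rw [ha]
    exact one_ne_zero
  obtain ⟨φ, hφn, hφa⟩ := exists_dual_vector ℝ a ha0
  have hφa1 : φ a = 1 := by
    rw [hφa, ha]
    simp
  have habs : ∀ z, |φ z| ≤ ‖z‖ := by
    intro z
    have h1 := φ.le_opNorm z
    rw [hφn, one_mul, Real.norm_eq_abs] at h1
    exact h1
  have hle : ∀ z, φ z ≤ ‖z‖ := fun z => le_trans (le_abs_self _) (habs z)
  have hsub : faceDir a ≤ LinearMap.ker (φ : E →ₗ[ℝ] ℝ) := fun z hz =>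
    LinearMap.mem_ker.2 (faceDir_ker ha φ hle hφa1 hz)
  have hker : Module.finrank ℝ (LinearMap.ker (φ : E →ₗ[ℝ] ℝ)) + 1 = Module.finrank ℝ E := by
    have h1 := LinearMap.finrank_range_add_finrank_ker (φ : E →ₗ[ℝ] ℝ)
    have hr : LinearMap.range (φ : E →ₗ[ℝ] ℝ) = ⊤ := by
      apply LinearMap.range_eq_top.2
      intro t
      refine ⟨t • a, ?_⟩
      show φ (t • a) = t
      rw [map_smul, hφa1, smul_eq_mul, mul_one]
    rw [hr, finrank_top, Module.finrank_self] at h1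
    omega
  have heq : faceDir a = LinearMap.ker (φ : E →ₗ[ℝ] ℝ) :=
    Submodule.eq_of_le_of_finrank_eq hsub (by omega)
  obtain ⟨r, hr, hrad⟩ := faceDir_radius ha
  refine ⟨φ, min (1 / 2) (r / 4), lt_min (by norm_num) (by positivity), ?_⟩
  intro v hv
  have hv1 : ‖v‖ < 1 / 2 := lt_of_lt_of_le hv (min_le_left _ _)
  have hv2 : ‖v‖ < r / 4 := lt_of_lt_of_le hv (min_le_right _ _)
  have hk1 : φ (a + v) = 1 + φ v := by rw [map_add, hφa1]
  have hφv := abs_le.1 (habs v)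
  have hkge : 1 / 2 ≤ φ (a + v) := by
    rw [hk1]
    linarith [hφv.1]
  have hkpos : 0 < φ (a + v) := by linarith
  have hφd : φ ((φ (a + v))⁻¹ • (a + v) - a) = 0 := by
    rw [map_sub, map_smul, hφa1, smul_eq_mul, inv_mul_cancel₀ hkpos.ne', sub_self]
  have hdmem : (φ (a + v))⁻¹ • (a + v) - a ∈ faceDir a := by
    rw [heq]
    exact LinearMap.mem_ker.2 hφd
  have hdeq : (φ (a + v))⁻¹ • (a + v) - a = (φ (a + v))⁻¹ • (v - φ v • a) := by
    have h1 : a = (φ (a + v))⁻¹ • (φ (a + v) • a) := by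
      rw [smul_smul, inv_mul_cancel₀ hkpos.ne', one_smul]
    have h2 : (φ (a + v))⁻¹ • (a + v) - a
        = (φ (a + v))⁻¹ • (a + v) - (φ (a + v))⁻¹ • (φ (a + v) • a) := by
      rw [← h1]
    rw [h2, ← smul_sub, hk1, add_smul, one_smul]
    congr 1
    abel
  have hinv : (φ (a + v))⁻¹ ≤ 2 := by
    rw [inv_le_comm₀ hkpos (by norm_num)]
    linarith
  have hdn : ‖(φ (a + v))⁻¹ • (a + v) - a‖ ≤ r := by
    rw [hdeq, norm_smul, Real.norm_eq_abs, abs_of_pos (inv_pos.2 hkpos)]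
    have h3 : ‖v - φ v • a‖ ≤ 2 * ‖v‖ := by
      calc ‖v - φ v • a‖ ≤ ‖v‖ + ‖φ v • a‖ := norm_sub_le _ _
        _ = ‖v‖ + |φ v| := by rw [norm_smul, ha, mul_one, Real.norm_eq_abs]
        _ ≤ 2 * ‖v‖ := by linarith [habs v]
    calc (φ (a + v))⁻¹ * ‖v - φ v • a‖ ≤ 2 * (2 * ‖v‖) :=
          mul_le_mul hinv h3 (norm_nonneg _) (by norm_num)
      _ ≤ r := by linarith
  have h1 := hrad _ hdmem hdn
  rw [add_sub_cancel, norm_smul, Real.norm_eq_abs, abs_of_pos (inv_pos.2 hkpos)] at h1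
  field_simp at h1
  linarith

/-- WD5.  The set `T = {τ : ℝ | ‖a + τ • d‖ ≤ 1}` is closed, contained in `[-2 / ‖d‖, 2 / ‖d‖]`
(`‖τ • d‖ ≤ ‖a + τ • d‖ + ‖a‖`), so compact, and contains `δ` and `-δ` for some `δ > 0` (`mem_faceDir`).  Let `τ₂`
be its maximum and `-τ₁` its minimum (`IsCompact.exists_isGreatest`, `IsCompact.exists_isLeast`).
`‖a + τ • d‖ ≥ 1` for `τ ∈ T`: with a dual vector `φ` of `a`, `φ d = 0` (`faceDir_ker`), `φ (a + τ • d) = 1`. -/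
lemma seg_ends {a d : E} (ha : ‖a‖ = 1) (hd : d ∈ faceDir a) (hd0 : d ≠ 0) :
    ∃ τ₁ τ₂ : ℝ, 0 < τ₁ ∧ 0 < τ₂ ∧ ‖a - τ₁ • d‖ = 1 ∧ ‖a + τ₂ • d‖ = 1 ∧
      ∀ τ : ℝ, ‖a + τ • d‖ = 1 → -τ₁ ≤ τ ∧ τ ≤ τ₂ := by
  have hdn : 0 < ‖d‖ := norm_pos_iff.2 hd0
  obtain ⟨δ, hδ, h1, h2⟩ := mem_faceDir.1 hd
  rw [ha] at h1 h2
  -- dual vector
  have hne : ‖a‖ ≠ 0 := by rw [ha]; norm_num
  obtain ⟨φ, hφ1, hφ2⟩ := exists_dual_vector ℝ a hne
  have hle : ∀ z, φ z ≤ ‖z‖ := by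
    intro z
    have h1 := φ.le_opNorm z
    rw [hφ1, one_mul] at h1
    exact (le_abs_self _).trans h1
  have hφa : φ a = 1 := by rw [hφ2, ha]; simp
  have hφd : φ d = 0 := faceDir_ker ha φ hle hφa hd
  have hge : ∀ τ : ℝ, 1 ≤ ‖a + τ • d‖ := by
    intro τ
    have := hle (a + τ • d)
    rw [map_add, map_smul, hφa, hφd, smul_eq_mul, mul_zero, add_zero] at this
    exact this
  set T : Set ℝ := {τ : ℝ | ‖a + τ • d‖ ≤ 1} with hT
  have hcont : Continuous fun τ : ℝ => ‖a + τ • d‖ := by fun_prop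
  have hclosed : IsClosed T := isClosed_le hcont continuous_const
  have hsub : T ⊆ Set.Icc (-(2 / ‖d‖)) (2 / ‖d‖) := by
    intro τ hτ
    have h3 : ‖τ • d‖ ≤ 2 := by
      have h4 : τ • d = (a + τ • d) - a := by abel
      calc ‖τ • d‖ = ‖(a + τ • d) - a‖ := by rw [← h4]
        _ ≤ ‖a + τ • d‖ + ‖a‖ := norm_sub_le _ _
        _ ≤ 1 + 1 := by rw [ha]; exact add_le_add hτ le_rfl
        _ = 2 := by norm_num
    rw [norm_smul, Real.norm_eq_abs] at h3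
    have h5 : |τ| ≤ 2 / ‖d‖ := by
      rw [le_div_iff₀ hdn]
      exact h3
    exact abs_le.1 h5
  have hcomp : IsCompact T := isCompact_Icc.of_isClosed_subset hclosed hsub
  have hδT : δ ∈ T := h1
  have hδT' : -δ ∈ T := by
    show ‖a + (-δ) • d‖ ≤ 1
    rw [neg_smul, ← sub_eq_add_neg]
    exact h2
  obtain ⟨t2, ht2, hmax⟩ := hcomp.exists_isGreatest ⟨δ, hδT⟩
  obtain ⟨t1, ht1, hmin⟩ := hcomp.exists_isLeast ⟨δ, hδT⟩
  have hp2 : 0 < t2 := lt_of_lt_of_le hδ (hmax hδT)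
  have hp1 : t1 < 0 := lt_of_le_of_lt (hmin hδT') (by linarith)
  refine ⟨-t1, t2, by linarith, hp2, ?_, le_antisymm ht2 (hge t2), ?_⟩
  · have e : a - (-t1) • d = a + t1 • d := by rw [neg_smul, sub_neg_eq_add]
    rw [e]
    exact le_antisymm ht1 (hge t1)
  · intro τ hτ
    have hτT : τ ∈ T := hτ.le
    exact ⟨by rw [neg_neg]; exact hmin hτT, hmax hτT⟩

/-- WD6.  `finrank_eq_one_iff'` (or `finrank_eq_one_iff_of_nonzero'`) gives `d ≠ 0` in `faceDir a` such that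
every element of `faceDir a` is a multiple of `d`.  `τ₁`, `τ₂` from `seg_ends`; `p = a - τ₁ • d`, `q = a + τ₂ • d`,
`l = τ₂ / (τ₁ + τ₂)`; `q - p = (τ₁ + τ₂) • d ≠ 0`.  With a dual vector `φ` of `a`: `φ p = φ q = 1`
(`faceDir_ker`), so `‖p + q‖ = 2`.  If `‖e‖ = 1`, `‖p + q + e‖ = 3`, take a dual vector `θ` of `p + q + e`:
`θ p = θ q = θ e = 1`, so `θ a = 1`, `‖a + e‖ = 2`, `e - a = τ • d` by `hstar`, `-τ₁ ≤ τ ≤ τ₂`,
`e = p + β • (q - p)` with `β = (τ + τ₁) / (τ₁ + τ₂)`. -/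
lemma seg_of_one [FiniteDimensional ℝ E] {a : E} (ha : ‖a‖ = 1)
    (hstar : ∀ e : E, ‖e‖ = 1 → ‖a + e‖ = 2 → e - a ∈ faceDir a)
    (h1 : Module.finrank ℝ (faceDir a) = 1) :
    ∃ (p q : E) (l : ℝ), SegFace p q ∧ 0 < l ∧ l < 1 ∧ a = l • p + (1 - l) • q := by
  obtain ⟨d', hd'0, hd'⟩ := finrank_eq_one_iff'.1 h1
  obtain ⟨d, hdd⟩ : ∃ d : E, d = (d' : E) := ⟨_, rfl⟩
  have hdm : d ∈ faceDir a := by
    rw [hdd]
    exact d'.2
  have hd0 : d ≠ 0 := by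
    intro h
    apply hd'0
    apply Subtype.ext
    rw [← hdd, h]
    rfl
  have hmul : ∀ w ∈ faceDir a, ∃ c : ℝ, c • d = w := by
    intro w hw
    obtain ⟨c, hc⟩ := hd' ⟨w, hw⟩
    refine ⟨c, ?_⟩
    have h2 := congrArg Subtype.val hc
    rw [hdd]
    simpa using h2
  obtain ⟨τ₁, τ₂, h1p, h2p, hn1, hn2, hall⟩ := seg_ends ha hdm hd0
  have hane : ‖a‖ ≠ 0 := by
    rw [ha]
    norm_num
  obtain ⟨φ, hφ1, hφ2⟩ := exists_dual_vector ℝ a hane
  have hφle : ∀ z, φ z ≤ ‖z‖ := by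
    intro z
    have h1 := φ.le_opNorm z
    rw [hφ1, one_mul] at h1
    exact (le_abs_self _).trans h1
  have hφa : φ a = 1 := by
    rw [hφ2, ha]
    simp
  have hφd : φ d = 0 := faceDir_ker ha φ hφle hφa hdm
  have hs : 0 < τ₁ + τ₂ := by linarith
  have hqp : (a + τ₂ • d) - (a - τ₁ • d) = (τ₁ + τ₂) • d := by module
  obtain ⟨l, hl⟩ : ∃ l : ℝ, l = τ₂ / (τ₁ + τ₂) := ⟨_, rfl⟩
  have hl0 : 0 < l := by
    rw [hl]
    positivity
  have hl1 : l < 1 := by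
    rw [hl, div_lt_one hs]
    linarith
  have hlc : (1 - l) * τ₂ - l * τ₁ = 0 := by
    rw [hl]
    field_simp
    ring
  refine ⟨a - τ₁ • d, a + τ₂ • d, l, ⟨hn1, hn2, ?_, ?_, ?_⟩, hl0, hl1, ?_⟩
  · intro h
    rw [h, sub_self] at hqp
    rcases smul_eq_zero.1 hqp.symm with h | h
    · linarith
    · exact hd0 h
  · apply le_antisymm
    · have a2 := norm_add_le (a - τ₁ • d) (a + τ₂ • d)
      rw [hn1, hn2] at a2
      linarith
    · have a3 := hφle ((a - τ₁ • d) + (a + τ₂ • d))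
      rw [map_add, map_sub, map_add, map_smul, map_smul, hφa, hφd] at a3
      simp only [smul_eq_mul, mul_zero, sub_zero, add_zero] at a3
      linarith
  · intro e he h3
    have hne3 : ‖(a - τ₁ • d) + (a + τ₂ • d) + e‖ ≠ 0 := by
      rw [h3]
      norm_num
    obtain ⟨θ, hθ1, hθ2⟩ := exists_dual_vector ℝ ((a - τ₁ • d) + (a + τ₂ • d) + e) hne3
    have hθle : ∀ z, θ z ≤ ‖z‖ := by
      intro z
      have h1 := θ.le_opNorm z
      rw [hθ1, one_mul] at h1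
      exact (le_abs_self _).trans h1
    have b1 := hθle (a - τ₁ • d)
    have b2 := hθle (a + τ₂ • d)
    have b3 := hθle e
    rw [hn1] at b1
    rw [hn2] at b2
    rw [he] at b3
    have b4 : θ (a - τ₁ • d) + θ (a + τ₂ • d) + θ e = 3 := by
      rw [← map_add, ← map_add, hθ2, h3]
      simp
    have c1 : θ (a - τ₁ • d) = 1 := by linarith
    have c2 : θ (a + τ₂ • d) = 1 := by linarith
    have c3 : θ e = 1 := by linarith
    rw [map_sub, map_smul, smul_eq_mul] at c1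
    rw [map_add, map_smul, smul_eq_mul] at c2
    have c4 : (τ₁ + τ₂) * θ d = 0 := by linarith
    have c5 : θ d = 0 := by
      rcases mul_eq_zero.1 c4 with h | h
      · linarith
      · exact h
    have c6 : θ a = 1 := by
      rw [c5] at c1
      linarith
    have hae : ‖a + e‖ = 2 := by
      apply le_antisymm
      · have a2 := norm_add_le a e
        rw [ha, he] at a2
        linarith
      · have a3 := hθle (a + e)
        rw [map_add, c6, c3] at a3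
        linarith
    obtain ⟨τ, hτ⟩ := hmul (e - a) (hstar e he hae)
    have he' : e = a + τ • d := by
      rw [hτ]
      abel
    have hb := hall τ (by rw [← he']; exact he)
    refine ⟨(τ + τ₁) / (τ₁ + τ₂), div_nonneg (by linarith) hs.le, ?_, ?_⟩
    · rw [div_le_one hs]
      linarith
    · rw [hqp, smul_smul, div_mul_cancel₀ _ hs.ne', he']
      module
  · have h5 : l • (a - τ₁ • d) + (1 - l) • (a + τ₂ • d) = a + ((1 - l) * τ₂ - l * τ₁) • d := by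
      module
    rw [h5, hlc, zero_smul, add_zero]

variable {f : E × F → W} (hf : SphIso f)
include hf

theorem dim3_good (h3 : Module.finrank ℝ E = 3) (hEn : ∃ e : E, ‖e‖ = 1) (hFn : ∃ s : F, ‖s‖ = 1)
    {x : E} (hx : ‖x‖ = 1) {ε : ℝ} (hε : 0 < ε) :
    ∃ a : E, ‖a‖ = 1 ∧ ‖a - x‖ < ε ∧ GoodPt f a := by
  haveI : FiniteDimensional ℝ E := Module.finite_of_finrank_pos (by omega)
  have hE : InnerDense E := innerDense_of_finiteDimensional
  have hodd : ∀ z : E × F, ‖z‖ = 1 → f (-z) = - f z := fun z hz => odd_one hf hEn hFn hE hz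
  have hLA : ∀ a : E, ‖a‖ = 1 → LeafAff f a := fun a ha => leafAff_all hf hE ha
  obtain ⟨a, ha, hax, hmax⟩ := exists_max_faceDir hx hε
  have hstar : ∀ e : E, ‖e‖ = 1 → ‖a + e‖ = 2 → e - a ∈ faceDir a :=
    fun e he h => sub_mem_of_max ha hax hmax he h
  have hlt := finrank_faceDir_lt ha
  rw [h3] at hlt
  have hcases : Module.finrank ℝ (faceDir a) = 0 ∨ Module.finrank ℝ (faceDir a) = 1 ∨
      Module.finrank ℝ (faceDir a) = 2 := by omega
  rcases hcases with h0 | h1 | h2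
  · exact ⟨a, ha, hax, rot_good hf ha (rot_of_zero hstar h0)⟩
  · obtain ⟨p, q, l, hseg, hl0, hl1, hal⟩ := seg_of_one ha hstar h1
    obtain ⟨a', ha', haa', hg⟩ := seg_dense hf hodd hseg hLA hl0 hl1
      (show 0 < ε - ‖a - x‖ by linarith)
    refine ⟨a', ha', ?_, hg⟩
    rw [← hal] at haa'
    calc ‖a' - x‖ = ‖(a' - a) + (a - x)‖ := by rw [sub_add_sub_cancel]
      _ ≤ ‖a' - a‖ + ‖a - x‖ := norm_add_le _ _
      _ < ε := by linarith
  · exact ⟨a, ha, hax, flat_good hf ha (flat_of_codim_one ha (by omega))⟩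

theorem dim3_raw (h3 : Module.finrank ℝ E = 3) (hEn : ∃ e : E, ‖e‖ = 1) (hFn : ∃ s : F, ‖s‖ = 1) :
    ∃ T : E × F →L[ℝ] W, ∀ z, ‖z‖ = 1 → T z = f z :=
  asm_raw hEn hFn hf (fun _ hx _ hε => dim3_good hf h3 hEn hFn hx hε)

omit hf in
/-- `E ⊕_∞ F` has the Mazur-Ulam property if `E` is three-dimensional; `F` is arbitrary. -/
theorem dim3_mup (E : Type u) (F : Type v) [NormedAddCommGroup E] [NormedSpace ℝ E]
    [NormedAddCommGroup F] [NormedSpace ℝ F] [Nontrivial E] [Nontrivial F]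
    (h3 : Module.finrank ℝ E = 3) :
    MazurUlamProperty.{max u v, w} (E × F) := by
  intro Y _ _ f hf hs
  obtain ⟨e, he⟩ := exists_norm_eq E (zero_le_one' ℝ)
  obtain ⟨s, hs'⟩ := exists_norm_eq F (zero_le_one' ℝ)
  exact equiv_of_raw (fun g hg => dim3_raw hg h3 ⟨e, he⟩ ⟨s, hs'⟩) f hf hs

end Vale.Agent.P084
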