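import Vale.Agent.P084.V.Two
import Vale.Agent.P084.V.FinDim

/-! `E × F` with the sup norm, inner points dense in the unit sphere of `E`, `F` ARBITRARY:
every surjective isometry of the unit sphere onto another unit sphere is odd. -/

namespace Vale.Agent.P084

open Metric Set

set_option linter.unusedSectionVars false

universe u v w

variable {E : Type u} {F : Type v} {W : Type w}
  [NormedAddCommGroup E] [NormedSpace ℝ E] [NormedAddCommGroup F] [NormedSpace ℝ F]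
  [NormedAddCommGroup W] [NormedSpace ℝ W]

/-- WO0.  As in the proof of `odd_all` (V/Two.lean): `g` an inverse of `z ↦ - f (-z)`
(`SphIso.negneg`, `SphIso.exists_inv`), `σ z = g (f z)` (`SphIso.comp'`); `hfg (f z)` gives the relation. -/
lemma exists_sigma {f : E × F → W} (hf : SphIso f) :
    ∃ σ : E × F → E × F, SphIso σ ∧ ∀ z, ‖z‖ = 1 → f z = - f (-(σ z)) := by
  have hfm : SphIso (fun z : E × F => - f (-z)) := SphIso.negneg hf
  obtain ⟨g, hg, hgf, hfg⟩ := hfm.exists_inv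
  have hσ : SphIso (fun z : E × F => g (f z)) := SphIso.comp' hf hg
  refine ⟨fun z => g (f z), hσ, ?_⟩
  intro z hz
  have h4 : - f (- g (f z)) = f z := hfg (f z) (hf.norm z hz)
  exact h4.symm

/-- WO16.  Sketch: `v = a - R a`; `R v = R a - R (R a) = - v`.  If `v ≠ 0` then `b = ‖v‖⁻¹ • v` is a unit
vector with `R b = - b`, so `‖R b + b‖ = 0 ≠ 2`. -/
lemma invol_id {G : Type v} [NormedAddCommGroup G] [NormedSpace ℝ G] (R : G →ₗ[ℝ] G)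
    (h1 : ∀ b, ‖b‖ = 1 → ‖R b + b‖ = 2) (h2 : ∀ b, ‖b‖ = 1 → R (R b) = b) {a : G} (ha : ‖a‖ = 1) :
    R a = a := by
  by_contra hne
  have hv : a - R a ≠ 0 := fun h => hne (sub_eq_zero.1 h).symm
  have hn : ‖a - R a‖ ≠ 0 := norm_ne_zero_iff.2 hv
  have hRv : R (a - R a) = -(a - R a) := by
    rw [map_sub, h2 a ha]
    abel
  have hb : ‖‖a - R a‖⁻¹ • (a - R a)‖ = 1 := by
    rw [norm_smul, norm_inv, norm_norm, inv_mul_cancel₀ hn]
  have h3 := h1 _ hb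
  rw [map_smul, hRv, smul_neg, neg_add_cancel, norm_zero] at h3
  norm_num at h3

variable {f : E × F → W} (hf : SphIso f) {σ : E × F → E × F} (hσ : SphIso σ)
  (hrel : ∀ z, ‖z‖ = 1 → f z = - f (-(σ z)))
include hf hσ hrel

/-- WO1.  `‖σ P + Q‖ = ‖-(σ P) - Q‖ = ‖f (-(σ P)) - f Q‖` (`hf.iso`, `‖-(σ P)‖ = 1` by `hσ.norm`), and
`f (-(σ P)) = - f P` by `hrel`, so this is `‖f P + f Q‖ = 2` (`mf_F1 hf`). -/
lemma sig_face {P Q : E × F} (hP : ‖P‖ = 1) (hQ : ‖Q‖ = 1) (h : ‖P + Q‖ = 2) : ‖σ P + Q‖ = 2 := by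
  have n1 : ‖-(σ P)‖ = 1 := by rw [norm_neg]; exact hσ.norm _ hP
  have e1 : f (-(σ P)) = - f P := by rw [hrel P hP, neg_neg]
  have e2 : σ P + Q = -(-(σ P) - Q) := by abel
  rw [e2, norm_neg, ← hf.iso _ _ n1 hQ, e1]
  have e3 : - f P - f Q = -(f P + f Q) := by abel
  rw [e3, norm_neg]
  exact mf_F1 hf hP hQ h

/-- WO2.  `hrel` at `z` and at `-(σ z)` give `f z = f (-(σ (-(σ z))))`; `hf.inj`. -/
lemma sig_invol {z : E × F} (hz : ‖z‖ = 1) : σ (-(σ z)) = -z := by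
  have h1 : ‖-(σ z)‖ = 1 := by rw [norm_neg]; exact hσ.norm z hz
  have h2 : ‖-(σ (-(σ z)))‖ = 1 := by rw [norm_neg]; exact hσ.norm _ h1
  have e1 := hrel z hz
  have e2 := hrel _ h1
  rw [e2, neg_neg] at e1
  have e3 := hf.inj hz h2 e1
  exact (neg_eq_iff_eq_neg.1 e3.symm)

/-- WO3.  `P = (x, s)`, `Q = (-(σ P).1, s)`: `‖P + Q‖ = 2` (second component `s + s`, first of norm at most
two), so by `sig_face` `‖σ P + Q‖ = ‖(0, (σ P).2 + s)‖ = 2`, so `‖(σ P).2‖ ≥ 1`; and `≤ ‖σ P‖ = 1`. -/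
lemma sig_snd_unit {x : E} {s : F} (hx : ‖x‖ ≤ 1) (hs : ‖s‖ = 1) : ‖(σ (x, s)).2‖ = 1 := by
  have hP : ‖((x, s) : E × F)‖ = 1 := by
    rw [Prod.norm_def]
    simp only
    rw [hs]
    exact max_eq_right hx
  have hS : ‖σ (x, s)‖ = 1 := hσ.norm _ hP
  have hS1 : ‖(σ (x, s)).1‖ ≤ 1 := by
    rw [← hS, Prod.norm_def]
    exact le_max_left _ _
  have hS2 : ‖(σ (x, s)).2‖ ≤ 1 := by
    rw [← hS, Prod.norm_def]
    exact le_max_right _ _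
  have hQ : ‖((-(σ (x, s)).1, s) : E × F)‖ = 1 := by
    rw [Prod.norm_def]
    simp only
    rw [hs, norm_neg]
    exact max_eq_right hS1
  have hss : ‖s + s‖ = 2 := by
    rw [← two_smul ℝ s, norm_smul, hs]
    norm_num
  have hPQ : ‖((x, s) : E × F) + (-(σ (x, s)).1, s)‖ = 2 := by
    rw [Prod.norm_def]
    simp only [Prod.mk_add_mk]
    rw [hss]
    apply max_eq_right
    calc ‖x + -(σ (x, s)).1‖ ≤ ‖x‖ + ‖-(σ (x, s)).1‖ := norm_add_le _ _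
      _ ≤ 1 + 1 := by
        rw [norm_neg]
        exact add_le_add hx hS1
      _ = 2 := by norm_num
  have h := sig_face hf hσ hrel hP hQ hPQ
  rw [Prod.norm_def] at h
  simp only [Prod.fst_add, Prod.snd_add, add_neg_cancel, norm_zero] at h
  have h2 : ‖(σ (x, s)).2 + s‖ = 2 := by
    rw [max_eq_right (norm_nonneg _)] at h
    exact h
  have h3 : ‖(σ (x, s)).2 + s‖ ≤ ‖(σ (x, s)).2‖ + ‖s‖ := norm_add_le _ _
  rw [h2, hs] at h3
  linarith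

/-- WO3'.  Mirror of `sig_snd_unit`: `Q = (a, -(σ P).2)`. -/
lemma sig_fst_unit {a : E} {u : F} (ha : ‖a‖ = 1) (hu : ‖u‖ ≤ 1) : ‖(σ (a, u)).1‖ = 1 := by
  have hP : ‖((a, u) : E × F)‖ = 1 := by
    rw [Prod.norm_def]
    simp only
    rw [ha]
    exact max_eq_left hu
  have hS : ‖σ (a, u)‖ = 1 := hσ.norm _ hP
  have hS1 : ‖(σ (a, u)).1‖ ≤ 1 := by
    rw [← hS, Prod.norm_def]
    exact le_max_left _ _
  have hS2 : ‖(σ (a, u)).2‖ ≤ 1 := by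
    rw [← hS, Prod.norm_def]
    exact le_max_right _ _
  have hQ : ‖((a, -(σ (a, u)).2) : E × F)‖ = 1 := by
    rw [Prod.norm_def]
    simp only
    rw [ha, norm_neg]
    exact max_eq_left hS2
  have hss : ‖a + a‖ = 2 := by
    rw [← two_smul ℝ a, norm_smul, ha]
    norm_num
  have hPQ : ‖((a, u) : E × F) + (a, -(σ (a, u)).2)‖ = 2 := by
    rw [Prod.norm_def]
    simp only [Prod.mk_add_mk]
    rw [hss]
    apply max_eq_left
    calc ‖u + -(σ (a, u)).2‖ ≤ ‖u‖ + ‖-(σ (a, u)).2‖ := norm_add_le _ _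
      _ ≤ 1 + 1 := by
        rw [norm_neg]
        exact add_le_add hu hS2
      _ = 2 := by norm_num
  have h := sig_face hf hσ hrel hP hQ hPQ
  rw [Prod.norm_def] at h
  simp only [Prod.fst_add, Prod.snd_add, add_neg_cancel, norm_zero] at h
  have h2 : ‖(σ (a, u)).1 + a‖ = 2 := by
    rw [max_eq_left (norm_nonneg _)] at h
    exact h
  have h3 : ‖(σ (a, u)).1 + a‖ ≤ ‖(σ (a, u)).1‖ + ‖a‖ := norm_add_le _ _
  rw [h2, ha] at h3
  linarith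

/-- WO4.  `z = (y, w)`.  Trivial if `w = 0`.  Otherwise `s = ‖w‖⁻¹ • w`, `‖(y, s)‖ = 1`,
`‖σ (y, w) - σ (y, s)‖ = ‖w - s‖ = 1 - ‖w‖` and `‖(σ (y, s)).2‖ = 1` (`sig_snd_unit`). -/
lemma sig_snd_ge {z : E × F} (hz : ‖z‖ = 1) : ‖z.2‖ ≤ ‖(σ z).2‖ := by
  obtain ⟨y, w⟩ := z
  simp only
  by_cases hw : w = 0
  · rw [hw, norm_zero]
    exact norm_nonneg _
  have hwn : ‖w‖ ≠ 0 := norm_ne_zero_iff.mpr hw
  have hy : ‖y‖ ≤ 1 := by
    rw [← hz, Prod.norm_def]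
    exact le_max_left _ _
  have hw1 : ‖w‖ ≤ 1 := by
    rw [← hz, Prod.norm_def]
    exact le_max_right _ _
  set s : F := ‖w‖⁻¹ • w with hsdef
  have hs : ‖s‖ = 1 := by
    rw [hsdef, norm_smul, norm_inv, norm_norm, inv_mul_cancel₀ hwn]
  have hws : w = ‖w‖ • s := by
    rw [hsdef, smul_smul, mul_inv_cancel₀ hwn, one_smul]
  have hP : ‖((y, s) : E × F)‖ = 1 := by
    rw [Prod.norm_def]
    simp only
    rw [hs]
    exact max_eq_right hy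
  have hd : ‖w - s‖ = 1 - ‖w‖ := by
    have : w - s = (‖w‖ - 1) • s := by
      rw [sub_smul, one_smul, ← hws]
    rw [this, norm_smul, hs, mul_one, Real.norm_eq_abs, abs_of_nonpos (by linarith)]
    ring
  have hiso := hσ.iso _ _ hP hz
  have hdist : ‖((y, s) : E × F) - (y, w)‖ = 1 - ‖w‖ := by
    rw [Prod.norm_def]
    simp only [Prod.mk_sub_mk, sub_self, norm_zero]
    rw [max_eq_right (norm_nonneg _), norm_sub_rev]
    exact hd
  rw [hdist] at hiso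
  have h1 := sig_snd_unit hf hσ hrel hy hs
  have h2 : ‖(σ (y, s)).2 - (σ (y, w)).2‖ ≤ 1 - ‖w‖ := by
    rw [← hiso, Prod.norm_def]
    exact le_max_right _ _
  have h3 : ‖(σ (y, s)).2‖ ≤ ‖(σ (y, s)).2 - (σ (y, w)).2‖ + ‖(σ (y, w)).2‖ := by
    have := norm_add_le ((σ (y, s)).2 - (σ (y, w)).2) ((σ (y, w)).2)
    rwa [sub_add_cancel] at this
  linarith

/-- WO4'.  Mirror of `sig_snd_ge` with `sig_fst_unit`. -/
lemma sig_fst_ge {z : E × F} (hz : ‖z‖ = 1) : ‖z.1‖ ≤ ‖(σ z).1‖ := by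
  obtain ⟨x, w⟩ := z
  have hx1 : ‖x‖ ≤ 1 := by
    have := norm_fst_le ((x, w) : E × F)
    rw [hz] at this
    exact this
  have hw1 : ‖w‖ ≤ 1 := by
    have := norm_snd_le ((x, w) : E × F)
    rw [hz] at this
    exact this
  by_cases hx0 : x = 0
  · simp [hx0]
  have hxpos : 0 < ‖x‖ := norm_pos_iff.mpr hx0
  have ha : ‖‖x‖⁻¹ • x‖ = 1 := by
    rw [norm_smul, norm_inv, norm_norm, inv_mul_cancel₀ hxpos.ne']
  have haw : ‖((‖x‖⁻¹ • x, w) : E × F)‖ = 1 := by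
    rw [Prod.norm_def]
    simp only [ha]
    exact max_eq_left hw1
  have hiso := hσ.iso (x, w) (‖x‖⁻¹ • x, w) hz haw
  have hxa : ‖x - ‖x‖⁻¹ • x‖ = 1 - ‖x‖ := by
    have e : x - ‖x‖⁻¹ • x = (1 - ‖x‖⁻¹) • x := by rw [sub_smul, one_smul]
    have hinv : 1 ≤ ‖x‖⁻¹ := (one_le_inv₀ hxpos).mpr hx1
    rw [e, norm_smul, Real.norm_eq_abs, abs_of_nonpos (by linarith)]
    field_simp
    ring
  have hdiff : ‖((x, w) : E × F) - (‖x‖⁻¹ • x, w)‖ = 1 - ‖x‖ := by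
    rw [Prod.mk_sub_mk, sub_self, Prod.norm_def]
    simp only [norm_zero, hxa]
    exact max_eq_left (by linarith)
  have h1 := sig_fst_unit hf hσ hrel ha hw1
  have h2 : ‖(σ (x, w)).1 - (σ (‖x‖⁻¹ • x, w)).1‖ ≤ ‖σ (x, w) - σ (‖x‖⁻¹ • x, w)‖ :=
    norm_fst_le (σ (x, w) - σ (‖x‖⁻¹ • x, w))
  have h3 : ‖(σ (‖x‖⁻¹ • x, w)).1‖ ≤
      ‖(σ (x, w)).1‖ + ‖(σ (x, w)).1 - (σ (‖x‖⁻¹ • x, w)).1‖ := by
    have := norm_sub_le ((σ (x, w)).1) ((σ (x, w)).1 - (σ (‖x‖⁻¹ • x, w)).1)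
    rwa [sub_sub_cancel] at this
  show ‖x‖ ≤ ‖(σ (x, w)).1‖
  linarith

/-- WO5.  `sig_snd_ge` at `z = -(σ (a, 0))`, where `σ z = -(a, 0)` by `sig_invol`. -/
lemma sig_snd_zero {a : E} (ha : ‖a‖ = 1) : (σ (a, 0)).2 = 0 := by
  have hP : ‖((a, 0) : E × F)‖ = 1 := by
    rw [Prod.norm_def]; simp [ha]
  have hz : ‖-(σ ((a, 0) : E × F))‖ = 1 := by
    rw [norm_neg]; exact hσ.norm _ hP
  have h1 := sig_snd_ge hf hσ hrel hz
  rw [sig_invol hf hσ hrel hP] at h1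
  simp only [Prod.snd_neg, neg_zero, norm_zero, norm_neg] at h1
  exact norm_le_zero_iff.1 h1

/-- WO5'.  Mirror of `sig_snd_zero`. -/
lemma sig_fst_zero {s : F} (hs : ‖s‖ = 1) : (σ (0, s)).1 = 0 := by
  have h0 : ‖((0 : E), s)‖ = 1 := by
    rw [Prod.norm_def]
    simp [hs]
  have hz : ‖-(σ ((0 : E), s))‖ = 1 := by
    rw [norm_neg]
    exact hσ.norm _ h0
  have h1 := sig_fst_ge hf hσ hrel hz
  rw [sig_invol hf hσ hrel h0] at h1
  simpa using h1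

/-- WO8.  `sig_invol` at `(a, 0)` and `sig_snd_zero`: `-(σ (a, 0)) = (-(σ (a, 0)).1, 0)`. -/
lemma star_neg {a : E} (ha : ‖a‖ = 1) : σ (-(σ (a, 0)).1, 0) = (-a, 0) := by
  have hP : ‖((a, 0) : E × F)‖ = 1 := by
    rw [Prod.norm_mk, ha, norm_zero, max_eq_left zero_le_one]
  have h1 := sig_invol hf hσ hrel hP
  have h2 := sig_snd_zero hf hσ hrel ha
  have e : -(σ ((a, 0) : E × F)) = (-(σ (a, 0)).1, 0) := by
    apply Prod.ext
    · simp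
    · simp [h2]
  rw [e] at h1
  rw [h1]
  simp

/-- WO8'.  Mirror. -/
lemma star_neg' {s : F} (hs : ‖s‖ = 1) : σ (0, -(σ (0, s)).2) = (0, -s) := by
  have hP : ‖((0, s) : E × F)‖ = 1 := by
    rw [Prod.norm_mk, hs, norm_zero, max_eq_right zero_le_one]
  have h1 := sig_invol hf hσ hrel hP
  have h2 := sig_fst_zero hf hσ hrel hs
  have e : -(σ ((0, s) : E × F)) = (0, -(σ (0, s)).2) := by
    apply Prod.ext
    · simp [h2]
    · simp
  rw [e] at h1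
  rw [h1]
  simp

/-- WO6.  Notation `a' = (σ (a, 0)).1`, `A` from `hA`, `d = (A u).1`; `σ (a, t • u) = σ (a, 0) + t • A u` for
`0 ≤ t ≤ 1`, `σ (a, 0) = (a', 0)` (`sig_snd_zero`).  `‖a' + d‖ = 1` by `sig_fst_unit`.  Put
`b = -(σ (-(a' + d), 0)).1`; by `sig_invol` at `(-(a' + d), 0)` and `sig_snd_zero`, `σ (b, 0) = (a' + d, 0)`,
`‖b‖ = 1`.  `‖a - b‖ = ‖σ (a, 0) - σ (b, 0)‖ = ‖d‖`.  Suppose `d ≠ 0`, `t = ‖d‖ / 2` (`‖d‖ ≤ ‖A u‖ = ‖u‖ ≤ 1`).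
`‖σ (a, t • u) - σ (b, 0)‖ = ‖(a, t • u) - (b, 0)‖ = max ‖d‖ (t ‖u‖) = ‖d‖`, but the left side is
`max ((1 - t) ‖d‖) (t ‖(A u).2‖) < ‖d‖`. -/
lemma sig_leaf_fst {a : E} (ha : ‖a‖ = 1) (hA : LeafAff σ a) {u : F} (hu : ‖u‖ ≤ 1) :
    (σ (a, u)).1 = (σ (a, 0)).1 := by
  obtain ⟨A, hAeq, hAn⟩ := hA
  have hnA : ‖A u‖ ≤ 1 := by rw [hAn]; exact hu
  obtain ⟨d, e2, hAu⟩ : ∃ (d : E) (e2 : F), A u = (d, e2) := ⟨(A u).1, (A u).2, rfl⟩
  have hmax : max ‖d‖ ‖e2‖ ≤ 1 := by rw [← pnrm, ← hAu]; exact hnA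
  have hd1 : ‖d‖ ≤ 1 := le_trans (le_max_left _ _) hmax
  have he1 : ‖e2‖ ≤ 1 := le_trans (le_max_right _ _) hmax
  obtain ⟨a', ha'⟩ : ∃ a', σ (a, 0) = (a', (0 : F)) :=
    ⟨(σ (a, 0)).1, Prod.ext rfl (sig_snd_zero hf hσ hrel ha)⟩
  have hσu : σ (a, u) = (a' + d, e2) := by
    rw [hAeq u hu, ha', hAu]; simp
  rw [hσu, ha']
  show a' + d = a'
  have h2 : ‖a' + d‖ = 1 := by
    have h := sig_fst_unit hf hσ hrel ha hu
    rw [hσu] at h; exact h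
  have hn : ‖-(a' + d)‖ = 1 := by rw [norm_neg, h2]
  have hz : ‖((-(a' + d), 0) : E × F)‖ = 1 := norm_face hn (by simp)
  have hinv := sig_invol hf hσ hrel hz
  have hs0 := sig_snd_zero hf hσ hrel hn
  obtain ⟨b, hb⟩ : ∃ b, -(σ (-(a' + d), 0)) = (b, (0 : F)) :=
    ⟨-(σ (-(a' + d), 0)).1, Prod.ext rfl (by
      show -(σ (-(a' + d), 0)).2 = 0
      rw [hs0, neg_zero])⟩
  rw [hb] at hinv
  have hσb : σ (b, 0) = (a' + d, 0) := by rw [hinv]; simp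
  have hbn : ‖b‖ = 1 := by
    have h := hσ.norm _ hz
    rw [← norm_neg, hb, pnrm] at h
    simpa using h
  by_contra hne
  have hd0 : d ≠ 0 := fun h0 => hne (by rw [h0, add_zero])
  have hdpos : 0 < ‖d‖ := norm_pos_iff.mpr hd0
  have e3 : a' - (a' + d) = -d := by abel
  have hab : ‖a - b‖ = ‖d‖ := by
    have h := hσ.iso (a, 0) (b, 0) (norm_face ha (by simp)) (norm_face hbn (by simp))
    rw [ha', hσb, pnrm_sub, pnrm_sub, e3, norm_neg, sub_zero, norm_zero,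
      max_eq_left (norm_nonneg _), max_eq_left (norm_nonneg _)] at h
    exact h.symm
  obtain ⟨t, ht⟩ : ∃ t : ℝ, t = ‖d‖ / 2 := ⟨_, rfl⟩
  have ht0 : 0 < t := by rw [ht]; positivity
  have ht1 : t ≤ 1 / 2 := by rw [ht]; linarith
  have htu : ‖t • u‖ ≤ 1 := by
    rw [norm_smul, Real.norm_eq_abs, abs_of_pos ht0]; nlinarith [norm_nonneg u]
  have hσt : σ (a, t • u) = (a' + t • d, t • e2) := by
    rw [hAeq _ htu, ha', map_smul, hAu]; simp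
  have h := hσ.iso (a, t • u) (b, 0) (norm_face ha htu) (norm_face hbn (by simp))
  rw [hσt, hσb, pnrm_sub, pnrm_sub] at h
  have e1 : a' + t • d - (a' + d) = -((1 - t) • d) := by
    rw [sub_smul, one_smul]; abel
  rw [e1, hab, norm_neg, sub_zero, sub_zero, norm_smul, norm_smul, norm_smul,
    Real.norm_eq_abs, Real.norm_eq_abs, abs_of_pos ht0,
    abs_of_pos (by linarith : (0 : ℝ) < 1 - t)] at h
  have hL : max ((1 - t) * ‖d‖) (t * ‖e2‖) < ‖d‖ := by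
    apply max_lt
    · nlinarith
    · have : t * ‖e2‖ ≤ t := by nlinarith [norm_nonneg e2]
      rw [ht] at this ⊢; linarith
  have hR : ‖d‖ ≤ max ‖d‖ (t * ‖u‖) := le_max_left _ _
  linarith

/-- WO7.  `V = (ContinuousLinearMap.snd ℝ E F).comp A`.  By `sig_leaf_fst` `(A u).1 = 0` for `‖u‖ ≤ 1`, hence for
all `u` (scale), so `‖V u‖ = ‖A u‖ = ‖u‖` (`Prod.norm_def`).  `sig_snd_zero`, `Prod.ext`. -/
lemma sig_leaf {a : E} (ha : ‖a‖ = 1) (hA : LeafAff σ a) :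
    ∃ V : F →L[ℝ] F, (∀ u, ‖V u‖ = ‖u‖) ∧ ∀ u, ‖u‖ ≤ 1 → σ (a, u) = ((σ (a, 0)).1, V u) := by
  have hA' := hA
  obtain ⟨A, hA1, hA2⟩ := hA
  have h0 : ∀ u : F, ‖u‖ ≤ 1 → (A u).1 = 0 := by
    intro u hu
    have h1 := sig_leaf_fst hf hσ hrel ha hA' hu
    rw [hA1 u hu] at h1
    simpa using h1
  have h0' : ∀ u : F, (A u).1 = 0 := by
    intro u
    by_cases hu : u = 0
    · subst hu; simp
    · have hn : ‖u‖ ≠ 0 := norm_ne_zero_iff.mpr hu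
      have h1 : ‖(‖u‖⁻¹ • u : F)‖ ≤ 1 := by
        rw [norm_smul, norm_inv, norm_norm, inv_mul_cancel₀ hn]
      have h2 := h0 _ h1
      rw [map_smul, Prod.smul_fst] at h2
      rcases smul_eq_zero.mp h2 with h3 | h3
      · exact absurd (inv_eq_zero.mp h3) hn
      · exact h3
  refine ⟨(ContinuousLinearMap.snd ℝ E F).comp A, fun u => ?_, fun u hu => ?_⟩
  · have h1 := hA2 u
    rw [Prod.norm_def, h0' u, norm_zero] at h1
    rw [← h1]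
    simp
  · have h2 := sig_snd_zero hf hσ hrel ha
    rw [hA1 u hu]
    apply Prod.ext
    · simp [h0' u]
    · simp [h2]

/-- WO9.  Notation `a' = (σ (a, 0)).1` (a unit vector).  `z = (-a', -w)` is a unit vector and
`σ (-(σ z)) = -z = (a', w)`.  By `sig_leaf_fst` at `-a'` and `star_neg`, `(σ z).1 = (σ (-a', 0)).1 = -a`.  So
`-(σ z) = (a, u)` with `u = -(σ z).2`, `‖u‖ ≤ ‖σ z‖ = 1`. -/
lemma sig_leaf_onto (hAll : ∀ b : E, ‖b‖ = 1 → LeafAff σ b) {a : E} (ha : ‖a‖ = 1) {w : F}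
    (hw : ‖w‖ ≤ 1) : ∃ u, ‖u‖ ≤ 1 ∧ σ (a, u) = ((σ (a, 0)).1, w) := by
  have ha' : ‖(σ (a, 0)).1‖ = 1 :=
    sig_fst_unit hf hσ hrel ha (u := (0 : F)) (by simp)
  have hna' : ‖-(σ (a, 0)).1‖ = 1 := by rw [norm_neg]; exact ha'
  have hnw : ‖-w‖ ≤ 1 := by rw [norm_neg]; exact hw
  have hz : ‖((-(σ (a, 0)).1, -w) : E × F)‖ = 1 := by
    rw [Prod.norm_def]
    simp only [hna']
    exact max_eq_left hnw
  have h1 := sig_invol hf hσ hrel hz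
  have h2 : (σ (-(σ (a, 0)).1, -w)).1 = (σ (-(σ (a, 0)).1, 0)).1 :=
    sig_leaf_fst hf hσ hrel hna' (hAll _ hna') hnw
  have h3 := star_neg hf hσ hrel ha
  rw [h3] at h2
  have h2' : (σ (-(σ (a, 0)).1, -w)).1 = -a := h2
  refine ⟨-(σ (-(σ (a, 0)).1, -w)).2, ?_, ?_⟩
  · rw [norm_neg]
    calc ‖(σ (-(σ (a, 0)).1, -w)).2‖ ≤ ‖σ (-(σ (a, 0)).1, -w)‖ := norm_snd_le _
      _ = 1 := hσ.norm _ hz
  · have h4 : -(σ (-(σ (a, 0)).1, -w)) = (a, -(σ (-(σ (a, 0)).1, -w)).2) := by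
      apply Prod.ext
      · simp only [Prod.fst_neg, h2', neg_neg]
      · simp only [Prod.snd_neg]
    rw [← h4, h1]
    simp

/-- WO10.  Trivial if `‖x‖ = 1`.  Otherwise `a = ‖x‖⁻¹ • x`, `θ = 1 - ‖x‖ = ‖x - a‖ < 1`, `a' = (σ (a, 0)).1`,
`V` from `sig_leaf`, `(x', s') = σ (x, s)`, `α = ‖x' - a'‖`.  For `‖u‖ ≤ 1`:
`max θ ‖s - u‖ = ‖(x, s) - (a, u)‖ = ‖σ (x, s) - σ (a, u)‖ = max α ‖s' - V u‖`.  `u = s`: `α ≤ θ`.  Take `u₀` with
`σ (a, u₀) = (a', s')` (`sig_leaf_onto`, `‖s'‖ ≤ 1`): `α ≥ θ`.  For `‖w‖ ≤ 1` take `u` with `V u = w`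
(`sig_leaf_onto`); `‖s - u‖ = ‖V s - w‖`; so `max θ ‖s' - w‖ = max θ ‖V s - w‖`.  `sphere_determined` (Cyl.lean)
gives `s' = V s = (σ (a, s)).2`. -/
lemma sig_side_snd (hAll : ∀ b : E, ‖b‖ = 1 → LeafAff σ b) {x : E} {s : F} (hx0 : x ≠ 0)
    (hx : ‖x‖ ≤ 1) (hs : ‖s‖ = 1) : (σ (x, s)).2 = (σ (‖x‖⁻¹ • x, s)).2 := by
  have hxpos : 0 < ‖x‖ := norm_pos_iff.mpr hx0
  obtain ⟨a, ha_def⟩ : ∃ a : E, a = ‖x‖⁻¹ • x := ⟨_, rfl⟩
  rw [← ha_def]
  have ha : ‖a‖ = 1 := by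
    rw [ha_def, norm_smul, norm_inv, norm_norm, inv_mul_cancel₀ hxpos.ne']
  obtain ⟨θ, hθ⟩ : ∃ θ : ℝ, θ = 1 - ‖x‖ := ⟨_, rfl⟩
  have hθ1 : θ < 1 := by linarith
  have hθ0 : 0 ≤ θ := by linarith
  have hxa : ‖x - a‖ = θ := by
    have h1 : x = ‖x‖ • a := by
      rw [ha_def, smul_smul, mul_inv_cancel₀ hxpos.ne', one_smul]
    have h2 : x - a = (‖x‖ - 1) • a := by
      rw [sub_smul, one_smul, ← h1]
    rw [h2, norm_smul, ha, mul_one, Real.norm_eq_abs, abs_of_nonpos (by linarith), hθ]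
    ring
  obtain ⟨V, hV, hVσ⟩ := sig_leaf hf hσ hrel ha (hAll a ha)
  have hP : ‖((x, s) : E × F)‖ = 1 := by
    rw [Prod.norm_def]
    simp only [hs]
    exact max_eq_right hx
  have hQ : ∀ u : F, ‖u‖ ≤ 1 → ‖((a, u) : E × F)‖ = 1 := by
    intro u hu
    rw [Prod.norm_def]
    simp only [ha]
    exact max_eq_left hu
  have hn := hσ.norm _ hP
  rcases hσxs : σ (x, s) with ⟨x', s'⟩
  rw [hσxs] at hn
  obtain ⟨a', ha'⟩ : ∃ a' : E, a' = (σ (a, 0)).1 := ⟨_, rfl⟩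
  rw [← ha'] at hVσ
  have key : ∀ u, ‖u‖ ≤ 1 → max θ ‖s - u‖ = max ‖x' - a'‖ ‖s' - V u‖ := by
    intro u hu
    have h := hσ.iso (x, s) (a, u) hP (hQ u hu)
    rw [hVσ u hu, hσxs, Prod.norm_def, Prod.norm_def] at h
    simp only [Prod.mk_sub_mk] at h
    rw [hxa] at h
    exact h.symm
  have hs'1 : ‖s'‖ ≤ 1 := (norm_snd_le (x', s')).trans hn.le
  have h1 : ‖x' - a'‖ ≤ θ := by
    have h := key s hs.le
    rw [sub_self, norm_zero, max_eq_left hθ0] at h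
    rw [h]
    exact le_max_left _ _
  obtain ⟨u0, hu0, hσu0⟩ := sig_leaf_onto hf hσ hrel hAll ha hs'1
  have hVu0 : V u0 = s' := by
    have h := hVσ u0 hu0
    rw [hσu0] at h
    exact (Prod.mk.inj h).2.symm
  have h2 : θ ≤ ‖x' - a'‖ := by
    have h := key u0 hu0
    rw [hVu0, sub_self, norm_zero, max_eq_left (norm_nonneg _)] at h
    rw [← h]
    exact le_max_left _ _
  have hαθ : ‖x' - a'‖ = θ := le_antisymm h1 h2
  have hVs : ‖V s‖ = 1 := by rw [hV, hs]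
  have hfin : s' = V s := by
    apply sphere_determined hθ1 hVs
    intro w hw
    obtain ⟨u, hu, hσu⟩ := sig_leaf_onto hf hσ hrel hAll ha hw
    have hVu : V u = w := by
      have h := hVσ u hu
      rw [hσu] at h
      exact (Prod.mk.inj h).2.symm
    have h := key u hu
    rw [hVu, hαθ] at h
    rw [← h, ← hVu, ← map_sub, hV]
  rw [hVσ s hs.le]
  exact hfin

/-- WO11.  For a unit vector `a` and `0 < ε < 1`: `(σ (ε • a, s)).2 = (σ (a, s)).2` (`sig_side_snd`) and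
`‖σ (ε • a, s) - σ (0, s)‖ = ε`, so `‖(σ (a, s)).2 - (σ (0, s)).2‖ ≤ ε`; `eq_of_forall_norm_le`.  For `x ≠ 0` use
`sig_side_snd` again. -/
lemma sig_side_const (hAll : ∀ b : E, ‖b‖ = 1 → LeafAff σ b) {x : E} {s : F}
    (hx : ‖x‖ ≤ 1) (hs : ‖s‖ = 1) : (σ (x, s)).2 = (σ (0, s)).2 := by
  have hunit : ∀ a : E, ‖a‖ = 1 → (σ (a, s)).2 = (σ (0, s)).2 := by
    intro a ha
    apply eq_of_forall_norm_le
    intro ε hε hε1
    have hn : ‖ε • a‖ = ε := by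
      rw [norm_smul, ha, mul_one, Real.norm_of_nonneg hε.le]
    have hne : ε • a ≠ 0 := by
      intro h0
      rw [h0, norm_zero] at hn
      exact hε.ne hn
    have h1 := sig_side_snd hf hσ hrel hAll hne (by rw [hn]; exact hε1.le) hs
    have h2 : ‖ε • a‖⁻¹ • (ε • a) = a := by
      rw [hn, smul_smul, inv_mul_cancel₀ hε.ne', one_smul]
    rw [h2] at h1
    have hq : ‖((ε • a, s) : E × F)‖ = 1 := norm_side (by rw [hn]; exact hε1.le) hs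
    have hp : ‖((0, s) : E × F)‖ = 1 := norm_side (by simp) hs
    have h3 := hσ.iso _ _ hq hp
    rw [pnrm_sub (ε • a) 0 s s, sub_zero, sub_self, norm_zero, hn, max_eq_left hε.le] at h3
    rw [← h1]
    calc ‖(σ (ε • a, s)).2 - (σ (0, s)).2‖ = ‖(σ (ε • a, s) - σ (0, s)).2‖ := rfl
      _ ≤ ‖σ (ε • a, s) - σ (0, s)‖ := norm_snd_le _
      _ = ε := h3
  by_cases hx0 : x = 0
  · rw [hx0]
  · rw [sig_side_snd hf hσ hrel hAll hx0 hx hs]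
    apply hunit
    rw [norm_smul, norm_inv, norm_norm, inv_mul_cancel₀ (norm_ne_zero_iff.mpr hx0)]

/-- WO12.  Notation `s' = (σ (0, s)).2` (unit vector, `sig_snd_unit`), `w = (y, s')`, `z = -(σ (-w))`.  `σ z = w`
(`sig_invol` at `-w`).  `z.2 = -(σ (-y, -s')).2 = -(σ (0, -s')).2 = s` (`sig_side_const`, `star_neg'`).
`x = z.1`. -/
lemma sig_side_onto (hAll : ∀ b : E, ‖b‖ = 1 → LeafAff σ b) {s : F} (hs : ‖s‖ = 1) {y : E}
    (hy : ‖y‖ ≤ 1) : ∃ x, ‖x‖ ≤ 1 ∧ σ (x, s) = (y, (σ (0, s)).2) := by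
  have hs' : ‖(σ (0, s)).2‖ = 1 := sig_snd_unit hf hσ hrel (by simp) hs
  have hw : ‖((y, (σ (0, s)).2) : E × F)‖ = 1 := norm_side hy hs'
  have hw' : ‖-((y, (σ (0, s)).2) : E × F)‖ = 1 := by rw [norm_neg]; exact hw
  have h1 := sig_invol hf hσ hrel hw'
  rw [neg_neg] at h1
  have h2 : (σ (-((y, (σ (0, s)).2) : E × F))).2 = -s := by
    have e1 : -((y, (σ (0, s)).2) : E × F) = (-y, -(σ (0, s)).2) := rfl
    rw [e1, sig_side_const hf hσ hrel hAll (by rw [norm_neg]; exact hy)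
      (by rw [norm_neg]; exact hs'), star_neg' hf hσ hrel hs]
  refine ⟨(-(σ (-((y, (σ (0, s)).2) : E × F)))).1, ?_, ?_⟩
  · calc ‖(-(σ (-((y, (σ (0, s)).2) : E × F)))).1‖ ≤ ‖-(σ (-((y, (σ (0, s)).2) : E × F)))‖ :=
          norm_fst_le _
      _ = 1 := by rw [norm_neg]; exact hσ.norm _ hw'
  · have e2 : (((-(σ (-((y, (σ (0, s)).2) : E × F)))).1, s) : E × F) =
        -(σ (-((y, (σ (0, s)).2) : E × F))) := by
      apply Prod.ext
      · rfl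
      · show s = -(σ (-((y, (σ (0, s)).2) : E × F))).2
        rw [h2, neg_neg]
    rw [e2]
    exact h1

/-- WO13.  `leaf_map_of (SphIso.swap hσ) hs hmid hext` (U/Leaf.lean, V/Leaf.lean).  By `sig_side_const`,
`sig_fst_zero` and `hσ.iso`: `σ (x, s) = ((σ (x, s)).1, s')`, `‖(σ (x, s)).1‖ = ‖x‖`,
`‖(σ (x1, s)).1 - (σ (x2, s)).1‖ = ‖x1 - x2‖`.  The vectors `(1/2) (σ (x1, s) + σ (x2, s))` and
`2 σ (x1, s) - σ (x2, s)` have second component `s'` and first component of norm at most one (in the second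
case at most `‖x1‖ + ‖x1 - x2‖ ≤ 1 - η + r`); `sig_side_onto`. -/
lemma sig_sideAff (hAll : ∀ b : E, ‖b‖ = 1 → LeafAff σ b) {s : F} (hs : ‖s‖ = 1) : SideAff σ s := by
  have hn : ∀ x : E, ‖x‖ ≤ 1 → ‖((x, s) : E × F)‖ = 1 := by
    intro x hx
    rw [Prod.norm_def]
    simp only [hs]
    exact max_eq_right hx
  have hc : ∀ x : E, ‖x‖ ≤ 1 → (σ (x, s)).2 = (σ (0, s)).2 := fun x hx =>
    sig_side_const hf hσ hrel hAll hx hs
  have h1 : ∀ x : E, ‖x‖ ≤ 1 → ‖(σ (x, s)).1‖ ≤ 1 := by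
    intro x hx
    have h := hσ.norm _ (hn x hx)
    rw [Prod.norm_def] at h
    have h' := le_max_left ‖(σ (x, s)).1‖ ‖(σ (x, s)).2‖
    linarith
  have hd : ∀ x y : E, ‖x‖ ≤ 1 → ‖y‖ ≤ 1 → ‖(σ (x, s)).1 - (σ (y, s)).1‖ ≤ ‖x - y‖ := by
    intro x y hx hy
    have h := hσ.iso _ _ (hn x hx) (hn y hy)
    have e : ((x, s) : E × F) - (y, s) = (x - y, 0) := by
      rw [Prod.mk_sub_mk, sub_self]
    have e2 : ‖((x - y, 0) : E × F)‖ = ‖x - y‖ := by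
      rw [Prod.norm_def]
      simp
    rw [e, e2, Prod.norm_def] at h
    have h' := le_max_left ‖(σ (x, s) - σ (y, s)).1‖ ‖(σ (x, s) - σ (y, s)).2‖
    rw [h, Prod.fst_sub] at h'
    exact h'
  have h0 : ‖(0 : E)‖ ≤ 1 := by rw [norm_zero]; exact zero_le_one
  have hz : ∀ x : E, ‖x‖ ≤ 1 → ‖(σ (x, s)).1‖ ≤ ‖x‖ := by
    intro x hx
    have h := hd x 0 hx h0
    rw [sig_fst_zero hf hσ hrel hs, sub_zero, sub_zero] at h
    exact h
  have hmid : ∀ u1 u2 : E, ‖u1‖ < 1 → ‖u2‖ ≤ 1 →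
      ∃ w, ‖w‖ ≤ 1 ∧ σ (w, s) = (1 / 2 : ℝ) • (σ (u1, s) + σ (u2, s)) := by
    intro u1 u2 hu1 hu2
    have hy : ‖(1 / 2 : ℝ) • ((σ (u1, s)).1 + (σ (u2, s)).1)‖ ≤ 1 := by
      rw [norm_smul, Real.norm_eq_abs, abs_of_nonneg (by norm_num)]
      have := norm_add_le (σ (u1, s)).1 (σ (u2, s)).1
      linarith [h1 u1 hu1.le, h1 u2 hu2]
    obtain ⟨w, hw, hw2⟩ := sig_side_onto hf hσ hrel hAll hs hy
    refine ⟨w, hw, ?_⟩
    rw [hw2]
    apply Prod.ext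
    · rw [Prod.smul_fst, Prod.fst_add]
    · rw [Prod.smul_snd, Prod.snd_add, hc u1 hu1.le, hc u2 hu2]
      module
  have hext : ∀ (η r : ℝ) (u1 u2 : E), 2 * r < η → ‖u1‖ ≤ 1 - η → ‖u2‖ ≤ 1 - η → ‖u1 - u2‖ ≤ r →
      ∃ w, ‖w‖ ≤ 1 ∧ σ (w, s) = (2 : ℝ) • σ (u1, s) - σ (u2, s) := by
    intro η r u1 u2 hr hu1 hu2 h12
    have hr0 : 0 ≤ r := le_trans (norm_nonneg _) h12
    have hu1' : ‖u1‖ ≤ 1 := by linarith
    have hu2' : ‖u2‖ ≤ 1 := by linarith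
    have hy : ‖(2 : ℝ) • (σ (u1, s)).1 - (σ (u2, s)).1‖ ≤ 1 := by
      have e : (2 : ℝ) • (σ (u1, s)).1 - (σ (u2, s)).1 =
          (σ (u1, s)).1 + ((σ (u1, s)).1 - (σ (u2, s)).1) := by module
      rw [e]
      have := norm_add_le (σ (u1, s)).1 ((σ (u1, s)).1 - (σ (u2, s)).1)
      linarith [hz u1 hu1', hd u1 u2 hu1' hu2']
    obtain ⟨w, hw, hw2⟩ := sig_side_onto hf hσ hrel hAll hs hy
    refine ⟨w, hw, ?_⟩
    rw [hw2]
    apply Prod.ext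
    · rw [Prod.fst_sub, Prod.smul_fst]
    · rw [Prod.snd_sub, Prod.smul_snd, hc u1 hu1', hc u2 hu2']
      module
  exact leaf_map_of (SphIso.swap hσ) hs hmid hext

/-- WO14.  Take a unit vector `s` and `B` from `sig_sideAff`; `R = (LinearMap.fst ℝ E F) ∘ₗ B`.  For a unit
vector `b`: `R b = (σ (b, s)).1 - (σ (0, s)).1 = (σ (b, 0)).1` (`sig_fst_zero`, `sig_leaf_fst`).
`‖R b + b‖ = 2`: `sig_face` with `P = Q = (b, 0)` and `sig_snd_zero`.  `R (R b) = b`: `star_neg` gives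
`R (-(R b)) = -b` (`‖R b‖ = 1` by `sig_fst_unit`).  `invol_id`, `sig_snd_zero`, `Prod.ext`. -/
lemma sig_fixE (hAll : ∀ b : E, ‖b‖ = 1 → LeafAff σ b) (hFn : ∃ s : F, ‖s‖ = 1) {a : E}
    (ha : ‖a‖ = 1) : σ (a, 0) = (a, 0) := by
  obtain ⟨s, hs⟩ := hFn
  obtain ⟨B, hB1, hB2⟩ := sig_sideAff hf hσ hrel hAll hs
  set R : E →ₗ[ℝ] E := (LinearMap.fst ℝ E F) ∘ₗ (B : E →ₗ[ℝ] E × F) with hR
  have hRdef : ∀ b : E, R b = (B b).1 := fun b => rfl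
  have hRb : ∀ b : E, ‖b‖ = 1 → R b = (σ (b, 0)).1 := by
    intro b hb
    have h1 := hB1 b hb.le
    have h2 := sig_fst_zero hf hσ hrel hs
    have h3 := sig_leaf_fst hf hσ hrel hb (hAll b hb) hs.le
    have h4 : (σ (b, s)).1 = (σ (0, s)).1 + (B b).1 := by rw [h1]; rfl
    rw [h2, zero_add, h3] at h4
    rw [hRdef, h4]
  have h1 : ∀ b, ‖b‖ = 1 → ‖R b + b‖ = 2 := by
    intro b hb
    have hP : ‖((b, 0) : E × F)‖ = 1 := by rw [pnrm]; simp [hb]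
    have hbb : ‖b + b‖ = 2 := by
      rw [← two_smul ℝ b, norm_smul, hb]; norm_num
    have hPP : ‖((b, 0) : E × F) + (b, 0)‖ = 2 := by
      rw [Prod.mk_add_mk, pnrm, hbb]; simp
    have h := sig_face hf hσ hrel hP hP hPP
    have h0 := sig_snd_zero hf hσ hrel hb
    rw [hRb b hb]
    have e : σ (b, 0) + (b, 0) = ((σ (b, 0)).1 + b, 0) := by
      apply Prod.ext
      · rfl
      · show (σ (b, 0)).2 + 0 = 0
        rw [h0, add_zero]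
    rw [e, pnrm] at h
    simpa using h
  have h2 : ∀ b, ‖b‖ = 1 → R (R b) = b := by
    intro b hb
    have hu : ‖(σ (b, 0)).1‖ = 1 := sig_fst_unit hf hσ hrel hb (by simp)
    have h3 := star_neg hf hσ hrel hb
    have h4 := hRb (-(σ (b, 0)).1) (by rw [norm_neg]; exact hu)
    rw [h3, map_neg] at h4
    rw [hRb b hb]
    exact neg_injective h4
  have h3 := invol_id R h1 h2 ha
  apply Prod.ext
  · show (σ (a, 0)).1 = a
    rw [← hRb a ha]; exact h3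
  · exact sig_snd_zero hf hσ hrel ha

/-- WO15.  Take a unit vector `a` and `V` from `sig_leaf`.  For a unit vector `t`:
`V t = (σ (a, t)).2 = (σ (0, t)).2` (`sig_side_const`).  `‖V t + t‖ = 2`: `sig_face` with `P = Q = (0, t)` and
`sig_fst_zero`.  `V (V t) = t`: `star_neg'`.  `invol_id`, `sig_fst_zero`, `Prod.ext`. -/
lemma sig_fixF (hAll : ∀ b : E, ‖b‖ = 1 → LeafAff σ b) (hEn : ∃ e : E, ‖e‖ = 1) {s : F}
    (hs : ‖s‖ = 1) : σ (0, s) = (0, s) := by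
  obtain ⟨a, ha⟩ := hEn
  obtain ⟨V, hV1, hV2⟩ := sig_leaf hf hσ hrel ha (hAll a ha)
  set R : F →ₗ[ℝ] F := (V : F →ₗ[ℝ] F) with hR
  have hRdef : ∀ t : F, R t = V t := fun t => rfl
  have hRt : ∀ t : F, ‖t‖ = 1 → R t = (σ (0, t)).2 := by
    intro t ht
    have h1 := hV2 t ht.le
    have h2 := sig_side_const hf hσ hrel hAll ha.le ht
    rw [h1] at h2
    rw [hRdef]
    exact h2
  have h1 : ∀ t, ‖t‖ = 1 → ‖R t + t‖ = 2 := by
    intro t ht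
    have hP : ‖((0, t) : E × F)‖ = 1 := by rw [pnrm]; simp [ht]
    have htt : ‖t + t‖ = 2 := by
      rw [← two_smul ℝ t, norm_smul, ht]; norm_num
    have hPP : ‖((0, t) : E × F) + (0, t)‖ = 2 := by
      rw [Prod.mk_add_mk, pnrm, htt]; simp
    have h := sig_face hf hσ hrel hP hP hPP
    have h0 := sig_fst_zero hf hσ hrel ht
    rw [hRt t ht]
    have e : σ (0, t) + (0, t) = (0, (σ (0, t)).2 + t) := by
      apply Prod.ext
      · show (σ (0, t)).1 + 0 = 0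
        rw [h0, add_zero]
      · rfl
    rw [e, pnrm] at h
    simpa using h
  have h2 : ∀ t, ‖t‖ = 1 → R (R t) = t := by
    intro t ht
    have hu : ‖(σ (0, t)).2‖ = 1 := sig_snd_unit hf hσ hrel (by simp) ht
    have h3 := star_neg' hf hσ hrel ht
    have h4 := hRt (-(σ (0, t)).2) (by rw [norm_neg]; exact hu)
    rw [h3, map_neg] at h4
    rw [hRt t ht]
    exact neg_injective h4
  have h3 := invol_id R h1 h2 hs
  apply Prod.ext
  · exact sig_fst_zero hf hσ hrel hs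
  · show (σ (0, s)).2 = s
    rw [← hRt s hs]; exact h3

omit hσ hrel in
theorem odd_one (hEn : ∃ e : E, ‖e‖ = 1) (hFn : ∃ s : F, ‖s‖ = 1) (hE : InnerDense E)
    {z : E × F} (hz : ‖z‖ = 1) : f (-z) = - f z := by
  obtain ⟨σ, hσ, hrel⟩ := exists_sigma hf
  have hAll : ∀ b : E, ‖b‖ = 1 → LeafAff σ b := fun b hb => leafAff_all hσ hE hb
  have h := fix_all hσ (fun b hb => sig_fixE hf hσ hrel hAll hFn hb)
    (fun s hs => sig_fixF hf hσ hrel hAll hEn hs) hAll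
    (fun s hs => sig_sideAff hf hσ hrel hAll hs) hz
  have h2 := hrel z hz
  rw [h] at h2
  rw [h2, neg_neg]

end Vale.Agent.P084
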