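import Vale.Agent.P084.W84.Odd

/-! `E × F` with the sup norm, `F` ARBITRARY: extreme points of the ball of `E` and the points of the
maximal faces of the sphere of `E` that are segments are good points of every odd surjective isometry of
the unit sphere that is affine on the leaves `{a} × B_F`. -/

namespace Vale.Agent.P084

open Metric Set

set_option linter.unusedSectionVars false

universe u v w

variable {E : Type u} {F : Type v} {W : Type w}
  [NormedAddCommGroup E] [NormedSpace ℝ E] [NormedAddCommGroup F] [NormedSpace ℝ F]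
  [NormedAddCommGroup W] [NormedSpace ℝ W]

/-- `a` is an extreme point of the unit ball (among unit vectors) -/
def ExtPt (a : E) : Prop :=
  ∀ b c : E, ‖b‖ = 1 → ‖c‖ = 1 → ∀ l : ℝ, 0 < l → l < 1 → a = l • b + (1 - l) • c → b = a

/-- the segment `[p, q]` is a maximal face of the unit sphere -/
def SegFace (p q : E) : Prop :=
  ‖p‖ = 1 ∧ ‖q‖ = 1 ∧ p ≠ q ∧ ‖p + q‖ = 2 ∧
    ∀ e : E, ‖e‖ = 1 → ‖p + q + e‖ = 3 → ∃ β : ℝ, 0 ≤ β ∧ β ≤ 1 ∧ e = p + β • (q - p)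

/-- WS0.  `exists_dual_vector ℝ (x + y)` gives `θ` of norm one with `θ (x + y) = 2`; `θ z ≤ ‖z‖`
(`ContinuousLinearMap.le_opNorm`, `le_abs_self`); `θ x ≤ 1`, `θ y ≤ 1` and the sum is `2`. -/
lemma dual_of_add {x y : E} (hx : ‖x‖ = 1) (hy : ‖y‖ = 1) (h : ‖x + y‖ = 2) :
    ∃ θ : E →L[ℝ] ℝ, (∀ z, θ z ≤ ‖z‖) ∧ θ x = 1 ∧ θ y = 1 := by
  have hne : ‖x + y‖ ≠ 0 := by
    rw [h]
    norm_num
  obtain ⟨θ, hθ1, hθ2⟩ := exists_dual_vector ℝ (x + y) hne
  have hle : ∀ z, θ z ≤ ‖z‖ := by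
    intro z
    have h1 := θ.le_opNorm z
    rw [hθ1, one_mul] at h1
    exact (le_abs_self _).trans h1
  have h1 := hle x
  have h2 := hle y
  rw [hx] at h1
  rw [hy] at h2
  have h3 : θ x + θ y = 2 := by
    rw [← map_add, hθ2, h]
    simp
  exact ⟨θ, hle, by linarith, by linarith⟩

/-- WS0b.  `3 = θ (p + q + e) ≤ ‖p + q + e‖ ≤ 3`. -/
lemma norm_three {p q e : E} (θ : E →L[ℝ] ℝ) (hθ : ∀ z, θ z ≤ ‖z‖) (hp : ‖p‖ = 1) (hq : ‖q‖ = 1)
    (he : ‖e‖ = 1) (h1 : θ p = 1) (h2 : θ q = 1) (h3 : θ e = 1) : ‖p + q + e‖ = 3 := by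
  apply le_antisymm
  · have a1 := norm_add_le (p + q) e
    have a2 := norm_add_le p q
    rw [hp, hq] at a2
    rw [he] at a1
    linarith
  · have a3 := hθ (p + q + e)
    rw [map_add, map_add, h1, h2, h3] at a3
    linarith

/-- WS1.  `e = p + β • (q - p) = q + (1 - β) • (p - q)`; `add_comm p q`. -/
lemma SegFace.symm {p q : E} (h : SegFace p q) : SegFace q p := by
  obtain ⟨hp, hq, hne, hs, hall⟩ := h
  refine ⟨hq, hp, hne.symm, by rw [add_comm]; exact hs, ?_⟩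
  intro e he h3
  rw [add_comm q p] at h3
  obtain ⟨β, h0, h1, rfl⟩ := hall e he h3
  refine ⟨1 - β, by linarith, by linarith, ?_⟩
  module

/-- WS2.  `norm_comb_of_add` (U/Face.lean). -/
lemma SegFace.norm_pt {p q : E} (h : SegFace p q) {l : ℝ} (hl0 : 0 ≤ l) (hl1 : l ≤ 1) :
    ‖l • p + (1 - l) • q‖ = 1 := by
  have := norm_comb_of_add h.1 h.2.1 h.2.2.2.1 hl0 (by linarith : (0:ℝ) ≤ 1 - l)
  rw [this]; ring

/-- WS3.  `θ` from `dual_of_add` for `a = l • p + (1 - l) • q` (`SegFace.norm_pt`) and `e`.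
`1 = θ a = l θ p + (1 - l) θ q` with `θ p ≤ 1`, `θ q ≤ 1`, so `θ p = θ q = 1`; `norm_three`; last clause of
`SegFace`. -/
lemma SegFace.star {p q : E} (h : SegFace p q) {l : ℝ} (hl0 : 0 < l) (hl1 : l < 1) {e : E}
    (he : ‖e‖ = 1) (hae : ‖(l • p + (1 - l) • q) + e‖ = 2) :
    ∃ β : ℝ, 0 ≤ β ∧ β ≤ 1 ∧ e = p + β • (q - p) := by
  have hn := h.norm_pt hl0.le hl1.le
  obtain ⟨θ, hθ, h1, h2⟩ := dual_of_add hn he hae
  obtain ⟨hp, hq, -, -, hlast⟩ := h
  have hp1 : θ p ≤ 1 := by rw [← hp]; exact hθ p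
  have hq1 : θ q ≤ 1 := by rw [← hq]; exact hθ q
  rw [map_add, map_smul, map_smul, smul_eq_mul, smul_eq_mul] at h1
  have hl2 : 0 < 1 - l := by linarith
  have hpe : θ p = 1 := by
    by_contra hne
    have hlt : θ p < 1 := lt_of_le_of_ne hp1 hne
    have h3 : l * θ p < l * 1 := mul_lt_mul_of_pos_left hlt hl0
    have h4 : (1 - l) * θ q ≤ (1 - l) * 1 := mul_le_mul_of_nonneg_left hq1 hl2.le
    linarith
  have hqe : θ q = 1 := by
    by_contra hne
    have hlt : θ q < 1 := lt_of_le_of_ne hq1 hne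
    have h3 : (1 - l) * θ q < (1 - l) * 1 := mul_lt_mul_of_pos_left hlt hl2
    have h4 : l * θ p ≤ l * 1 := mul_le_mul_of_nonneg_left hp1 hl0.le
    linarith
  exact hlast e he (norm_three θ hθ hp hq he hpe hqe h2)

/-- WS4.  Let `p = l • b + (1 - l) • c`.  `θ` from `dual_of_add` for `p`, `q`.  `θ b = θ c = 1` as in
`SegFace.star`, so (`norm_three`) `b = p + β • (q - p)`, `c = p + γ • (q - p)`, and
`(l β + (1 - l) γ) • (q - p) = 0` with `q - p ≠ 0`, so `l β + (1 - l) γ = 0`, so `β = 0`. -/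
lemma SegFace.ext {p q : E} (h : SegFace p q) : ExtPt p := by
  obtain ⟨hp, hq, hne, hpq, hface⟩ := h
  intro b c hb hc l hl0 hl1 hpe
  obtain ⟨θ, hθ, h1, h2⟩ := dual_of_add hp hq hpq
  have hb1 : θ b ≤ 1 := le_of_le_of_eq (hθ b) hb
  have hc1 : θ c ≤ 1 := le_of_le_of_eq (hθ c) hc
  have hsum : l * θ b + (1 - l) * θ c = 1 := by
    have h3 := congrArg θ hpe
    rw [map_add, map_smul, map_smul, smul_eq_mul, smul_eq_mul, h1] at h3
    exact h3.symm
  have h4 : 0 ≤ l * (1 - θ b) := mul_nonneg hl0.le (by linarith)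
  have h5 : 0 ≤ (1 - l) * (1 - θ c) := mul_nonneg (by linarith) (by linarith)
  have h6 : l * (1 - θ b) + (1 - l) * (1 - θ c) = 0 := by linear_combination -hsum
  have hbe : θ b = 1 := by
    have h7 : l * (1 - θ b) = 0 := by linarith
    rcases mul_eq_zero.1 h7 with h8 | h8
    · exact absurd h8 hl0.ne'
    · linarith
  have hce : θ c = 1 := by
    have h7 : (1 - l) * (1 - θ c) = 0 := by linarith
    rcases mul_eq_zero.1 h7 with h8 | h8
    · exfalso; linarith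
    · linarith
  obtain ⟨β, hβ0, hβ1, hbβ⟩ := hface b hb (norm_three θ hθ hp hq hb h1 h2 hbe)
  obtain ⟨γ, hγ0, hγ1, hcγ⟩ := hface c hc (norm_three θ hθ hp hq hc h1 h2 hce)
  have hz : (l * β + (1 - l) * γ) • (q - p) = 0 := by
    have e : l • b + (1 - l) • c = p + (l * β + (1 - l) * γ) • (q - p) := by
      rw [hbβ, hcγ]; module
    rw [e] at hpe
    exact add_left_cancel (a := p) (by rw [add_zero]; exact hpe.symm)
  rcases smul_eq_zero.1 hz with h9 | h9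
  · have h10 : 0 ≤ l * β := mul_nonneg hl0.le hβ0
    have h11 : 0 ≤ (1 - l) * γ := mul_nonneg (by linarith) hγ0
    have h12 : l * β = 0 := by linarith
    rcases mul_eq_zero.1 h12 with h13 | h13
    · exact absurd h13 hl0.ne'
    · rw [hbβ, h13, zero_smul, add_zero]
  · exact absurd (sub_eq_zero.1 h9).symm hne

/-- WS5.  Norms: `norm_smul`, `norm_sub_rev`, `add_comm`.  Third clause: `module` after clearing inverses
(`smul_smul`, `mul_inv_cancel₀`).  Last clause: a dual vector `θ` of `a` (`exists_dual_vector`) satisfies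
`1 = θ a = λ θ a₁ + (1 - λ) θ a₂` with `θ a₁ ≤ 1`, `θ a₂ ≤ 1`, `0 < λ < 1`, so `θ a₁ = 1`,
`2 = θ (a + a₁) ≤ ‖a + a₁‖ ≤ 2`. -/
lemma cyl_split {a x : E} (ha : ‖a‖ = 1) {t : ℝ} (ht0 : 0 < t) (ht1 : t < 1)
    (h1 : ‖x - a‖ = 1 - t) (h2 : ‖x + a‖ = 1 + t) :
    ‖(1 - t)⁻¹ • (a - x)‖ = 1 ∧ ‖(1 + t)⁻¹ • (a + x)‖ = 1 ∧
      a = ((1 - t) / 2) • ((1 - t)⁻¹ • (a - x)) + (1 - (1 - t) / 2) • ((1 + t)⁻¹ • (a + x)) ∧
      ‖a + (1 - t)⁻¹ • (a - x)‖ = 2 := by
  have p1 : 0 < 1 - t := by linarith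
  have p2 : 0 < 1 + t := by linarith
  have n1 : ‖(1 - t)⁻¹ • (a - x)‖ = 1 := by
    rw [norm_smul, norm_sub_rev, h1, Real.norm_eq_abs, abs_of_pos (inv_pos.2 p1)]
    exact inv_mul_cancel₀ p1.ne'
  have n2 : ‖(1 + t)⁻¹ • (a + x)‖ = 1 := by
    rw [norm_smul, add_comm a x, h2, Real.norm_eq_abs, abs_of_pos (inv_pos.2 p2)]
    exact inv_mul_cancel₀ p2.ne'
  have e3 : a = ((1 - t) / 2) • ((1 - t)⁻¹ • (a - x)) +
      (1 - (1 - t) / 2) • ((1 + t)⁻¹ • (a + x)) := by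
    rw [smul_smul, smul_smul]
    have c1 : (1 - t) / 2 * (1 - t)⁻¹ = 1 / 2 := by field_simp
    have c2 : (1 - (1 - t) / 2) * (1 + t)⁻¹ = 1 / 2 := by field_simp; ring
    rw [c1, c2]
    module
  refine ⟨n1, n2, e3, ?_⟩
  obtain ⟨θ, hθ1, hθ2⟩ := exists_dual_vector ℝ a (by
    rw [ha]
    exact one_ne_zero)
  have hle : ∀ z, θ z ≤ ‖z‖ := by
    intro z
    calc θ z ≤ |θ z| := le_abs_self _
      _ = ‖θ z‖ := (Real.norm_eq_abs _).symm
      _ ≤ ‖θ‖ * ‖z‖ := θ.le_opNorm z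
      _ = ‖z‖ := by rw [hθ1, one_mul]
  have hθa : θ a = 1 := by
    rw [hθ2, ha]
    simp
  set a1 := (1 - t)⁻¹ • (a - x) with ha1
  set a2 := (1 + t)⁻¹ • (a + x) with ha2
  clear_value a1 a2
  have b1 : θ a1 ≤ 1 := n1 ▸ hle a1
  have b2 : θ a2 ≤ 1 := n2 ▸ hle a2
  have hsum : 1 = ((1 - t) / 2) * θ a1 + (1 - (1 - t) / 2) * θ a2 := by
    have := congrArg θ e3
    rw [map_add, map_smul, map_smul, hθa, smul_eq_mul, smul_eq_mul] at this
    exact this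
  have hθ1' : θ a1 = 1 := by
    by_contra hne
    have hlt : θ a1 < 1 := lt_of_le_of_ne b1 hne
    have q1 : 0 < (1 - t) / 2 := by linarith
    have q2 : 0 ≤ 1 - (1 - t) / 2 := by linarith
    nlinarith
  apply le_antisymm
  · calc ‖a + a1‖ ≤ ‖a‖ + ‖a1‖ := norm_add_le _ _
      _ = 2 := by rw [ha, n1]; norm_num
  · calc (2 : ℝ) = θ (a + a1) := by rw [map_add, hθa, hθ1']; norm_num
      _ ≤ ‖a + a1‖ := hle _

variable {f : E × F → W} (hf : SphIso f) (hodd : ∀ z : E × F, ‖z‖ = 1 → f (-z) = - f z)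
include hf hodd

/-- WS6.  Copy of the proof of `side_r` (U/Rot.lean) up to `h6`; instead of `pole_r` use `hodd (a, 0)`
(`f (-a, 0) = - f (a, 0)`; `Prod.neg_mk`, `neg_zero`).  `‖x‖ ≤ 1` from `‖(x, s)‖ = 1` (`pnrm`). -/
lemma cyl_point {a : E} (ha : ‖a‖ = 1) (A : F →L[ℝ] W)
    (hA1 : ∀ u, ‖u‖ ≤ 1 → f (a, u) = f (a, 0) + A u) (hA2 : ∀ u, ‖A u‖ = ‖u‖)
    {t : ℝ} (ht0 : 0 < t) (ht1 : t < 1) {s : F} (hs : ‖s‖ = 1) :
    ∃ x : E, ‖x‖ ≤ 1 ∧ f (x, s) = t • f (a, 0) + A s ∧ ‖x - a‖ = 1 - t ∧ ‖x + a‖ = 1 + t := by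
  set c : W := f (a, 0) with hc
  have hN := slice_norm c A (fun u hu => by rw [← hA1 u hu]; exact hf.norm _ (norm_face ha hu)) hA2
  have hyn : ‖t • c + A s‖ = 1 := by
    rw [hN, hs, abs_of_pos ht0]; exact max_eq_right ht1.le
  obtain ⟨⟨e', s'⟩, hp', hfp'⟩ := hf.surj _ hyn
  have star : ∀ u : F, ‖u‖ ≤ 1 → max ‖e' - a‖ ‖s' - u‖ = max |t - 1| ‖s - u‖ := by
    intro u hu
    rw [← pnrm_sub, ← hf.iso _ _ hp' (norm_face ha hu), hfp', hA1 u hu, ← hN]
    congr 1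
    rw [map_sub]; module
  have hp'' := hp'
  rw [pnrm] at hp''
  have hs'1 : ‖s'‖ ≤ 1 := hp'' ▸ le_max_right _ _
  have he'1 : ‖e'‖ ≤ 1 := hp'' ▸ le_max_left _ _
  have a1 : |t - 1| = 1 - t := by rw [abs_sub_comm, abs_of_pos (by linarith)]
  have h1 := star s hs.le
  rw [sub_self, norm_zero, a1, max_eq_left (by linarith : (0 : ℝ) ≤ 1 - t)] at h1
  have h2 := star s' hs'1
  rw [sub_self, norm_zero, a1, max_eq_left (norm_nonneg _)] at h2
  have h3 : ‖e' - a‖ ≤ 1 - t := h1 ▸ le_max_left _ _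
  have h4 : 1 - t ≤ ‖e' - a‖ := h2 ▸ le_max_left _ _
  have hee : ‖e' - a‖ = 1 - t := le_antisymm h3 h4
  have hss : s' = s := by
    apply sphere_determined (ε := 1 - t) (by linarith) hs
    intro u hu
    have := star u hu
    rwa [a1, hee] at this
  subst hss
  have he' : ‖-a‖ = 1 := by rw [norm_neg]; exact ha
  have hpole : f (-a, (0 : F)) = - f (a, 0) := by
    have h0 := hodd (a, (0 : F)) (norm_face ha (by simp : ‖(0 : F)‖ ≤ 1))
    rwa [Prod.neg_mk, neg_zero] at h0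
  have h5 := hf.iso _ _ hp' (norm_face (F := F) he' (by simp : ‖(0 : F)‖ ≤ 1))
  rw [hfp', hpole, ← hc, pnrm_sub, sub_zero, hs, sub_neg_eq_add, sub_neg_eq_add] at h5
  have e1 : t • c + A s' + c = (t + 1) • c + A s' := by module
  rw [e1, hN, hs, abs_of_pos (by linarith), max_eq_left (by linarith)] at h5
  have h6 : ‖e' + a‖ = t + 1 := by
    rcases max_choice ‖e' + a‖ 1 with h | h
    · rw [h] at h5; exact h5.symm
    · rw [h] at h5; linarith
  exact ⟨e', he'1, hfp', hee, by rw [h6]; ring⟩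

/-- WS7.  `A` from `hL`; for `t`, `s` take `x` from `cyl_point`; by `cyl_split` and `hext` (with
`l = (1 - t) / 2`) `(1 - t)⁻¹ • (a - x) = a`, so `x = t • a`. -/
lemma ext_good {a : E} (ha : ‖a‖ = 1) (hext : ExtPt a) (hL : LeafAff f a) : GoodPt f a := by
  obtain ⟨A, hA1, hA2⟩ := hL
  refine ⟨A, hA2, hA1, ?_⟩
  intro t s ht0 ht1 hs
  obtain ⟨x, -, hfx, h1, h2⟩ := cyl_point hf hodd ha A hA1 hA2 ht0 ht1 hs
  obtain ⟨n1, n2, hsplit, -⟩ := cyl_split ha ht0 ht1 h1 h2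
  have hl0 : 0 < (1 - t) / 2 := by linarith
  have hl1 : (1 - t) / 2 < 1 := by linarith
  have hb := hext _ _ n1 n2 ((1 - t) / 2) hl0 hl1 hsplit
  have ht : (1 - t) ≠ 0 := by linarith
  have hx : x = t • a := by
    have e : a - x = (1 - t) • a := by
      have e0 : (1 - t) • ((1 - t)⁻¹ • (a - x)) = (1 - t) • a := by rw [hb]
      rwa [smul_smul, mul_inv_cancel₀ ht, one_smul] at e0
    have e2 : x = a - (1 - t) • a := by
      rw [← e]; abel
    rw [e2, sub_smul, one_smul]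
    abel
  rw [← hx]
  exact hfx

variable {p q : E} (h : SegFace p q) {A : F →L[ℝ] W} (hA2 : ∀ u, ‖A u‖ = ‖u‖)
  (hp1 : ∀ u, ‖u‖ ≤ 1 → f (p, u) = f (p, 0) + A u)
  (hq1 : ∀ u, ‖u‖ ≤ 1 → f (q, u) = f (q, 0) + A u)
  (hp3 : ∀ (t : ℝ) (s : F), 0 < t → t < 1 → ‖s‖ = 1 → f (t • p, s) = t • f (p, 0) + A s)
  (hq3 : ∀ (t : ℝ) (s : F), 0 < t → t < 1 → ‖s‖ = 1 → f (t • q, s) = t • f (q, 0) + A s)
include h hA2 hp1 hq1

/-- WS8.  `ℓ = ‖q - p‖`, `0 < ℓ ≤ 2`.  `slice_norm c A` (Sc1.lean) with `c = ℓ⁻¹ • (f (q, 0) - f (p, 0))`: for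
`‖u‖ ≤ 1` put `u1 = (ℓ / 2) • u`, `u2 = -u1` (norm at most one);
`‖f (q, u1) - f (p, u2)‖ = max ℓ ‖u1 - u2‖ = ℓ` (`hf.iso`, `pnrm_sub`, `norm_face`) and
`f (q, u1) - f (p, u2) = ℓ • (c + A u)`.  Then `α • (f (q, 0) - f (p, 0)) = (α ℓ) • c`. -/
lemma seg_norm (α : ℝ) (w : F) :
    ‖α • (f (q, 0) - f (p, 0)) + A w‖ = max (|α| * ‖q - p‖) ‖w‖ := by
  obtain ⟨hp, hq, hpq, -, -⟩ := h
  have hl0 : 0 < ‖q - p‖ := norm_pos_iff.2 (sub_ne_zero.2 (Ne.symm hpq))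
  have hl2 : ‖q - p‖ ≤ 2 := by
    calc ‖q - p‖ ≤ ‖q‖ + ‖p‖ := norm_sub_le _ _
      _ = 2 := by rw [hp, hq]; norm_num
  set l : ℝ := ‖q - p‖ with hl
  have h1 : ∀ u : F, ‖u‖ ≤ 1 → ‖l⁻¹ • (f (q, 0) - f (p, 0)) + A u‖ = 1 := by
    intro u hu
    have hu1 : ‖(l / 2) • u‖ ≤ 1 := by
      rw [norm_smul, Real.norm_eq_abs, abs_of_pos (by linarith)]
      nlinarith [norm_nonneg u]
    have hu2 : ‖-((l / 2) • u)‖ ≤ 1 := by rw [norm_neg]; exact hu1
    have e1 : f (q, (l / 2) • u) - f (p, -((l / 2) • u)) =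
        l • (l⁻¹ • (f (q, 0) - f (p, 0)) + A u) := by
      rw [hq1 _ hu1, hp1 _ hu2, map_neg, map_smul, smul_add, smul_smul, mul_inv_cancel₀ hl0.ne',
        one_smul]
      module
    have e2 : ‖f (q, (l / 2) • u) - f (p, -((l / 2) • u))‖ = l := by
      rw [hf.iso _ _ (norm_face hq hu1) (norm_face hp hu2), pnrm_sub, ← hl]
      apply max_eq_left
      have : (l / 2) • u - -((l / 2) • u) = l • u := by module
      rw [this, norm_smul, Real.norm_eq_abs, abs_of_pos hl0]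
      nlinarith [norm_nonneg u]
    rw [e1, norm_smul, Real.norm_eq_abs, abs_of_pos hl0] at e2
    have : l * ‖l⁻¹ • (f (q, 0) - f (p, 0)) + A u‖ = l * 1 := by rw [e2, mul_one]
    exact mul_left_cancel₀ hl0.ne' this
  have h2 := slice_norm (l⁻¹ • (f (q, 0) - f (p, 0))) A h1 hA2 (α * l) w
  rw [smul_smul, mul_assoc, mul_inv_cancel₀ hl0.ne', mul_one, abs_mul, abs_of_pos hl0] at h2
  exact h2

/-- WS9.  `a = l • p + (1 - l) • q`, `y = l • f (p, u) + (1 - l) • f (q, u)` (equal to the right side by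
`hp1`, `hq1`).  `mf_functional hf ![(p, u), (q, u), (a, 0)]` (the sum is `(p + q + a, u + u + 0)`,
`p + q + a = (1 + l) • p + (2 - l) • q` has norm `3` by `norm_comb_of_add`, `‖u + u‖ ≤ 2`) gives `ψ ≤ ‖·‖`
with `ψ = 1` at the three images.  So `ψ y = 1`, `‖y‖ = 1` (`≤` by the triangle inequality) and
`‖y + f (a, 0)‖ = 2`.  `hf.surj`: `y = f (e, v)`.  `mf_F1_inv hf`: `‖(e, v) + (a, 0)‖ = 2`, so `‖e + a‖ = 2`
(as `‖v‖ ≤ 1`), `‖e‖ = 1`.  `SegFace.star`: `e = p + β • (q - p)`.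
`(1 - l) ‖q - p‖ = ‖y - f (p, u)‖ = ‖(e, v) - (p, u)‖ ≥ ‖e - p‖ = β ‖q - p‖` and
`l ‖q - p‖ = ‖y - f (q, u)‖ ≥ ‖e - q‖ = (1 - β) ‖q - p‖`; so `β = 1 - l`, `e = a`. -/
lemma seg_pt {l : ℝ} (hl0 : 0 < l) (hl1 : l < 1) {u : F} (hu : ‖u‖ ≤ 1) :
    ∃ v : F, ‖v‖ ≤ 1 ∧
      f (l • p + (1 - l) • q, v) = l • f (p, 0) + (1 - l) • f (q, 0) + A u := by
  have hstar := fun {e : E} (he : ‖e‖ = 1) (hae : ‖(l • p + (1 - l) • q) + e‖ = 2) =>
    SegFace.star h hl0 hl1 he hae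
  obtain ⟨hp, hq, hpq, hpq2, -⟩ := h
  have hl1' : (0 : ℝ) < 1 - l := by linarith
  have hna : ‖l • p + (1 - l) • q‖ = 1 := by
    have := norm_comb_of_add hp hq hpq2 hl0.le hl1'.le
    rw [this]; ring
  have hyeq : l • f (p, u) + (1 - l) • f (q, u) = l • f (p, 0) + (1 - l) • f (q, 0) + A u := by
    rw [hp1 u hu, hq1 u hu]; module
  have hPu : ‖((p, u) : E × F)‖ = 1 := norm_face hp hu
  have hQu : ‖((q, u) : E × F)‖ = 1 := norm_face hq hu
  have hA0 : ‖((l • p + (1 - l) • q, 0) : E × F)‖ = 1 := norm_face hna (by simp)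
  have hsum3 : ‖p + q + (l • p + (1 - l) • q)‖ = 3 := by
    have e1 : p + q + (l • p + (1 - l) • q) = (1 + l) • p + (2 - l) • q := by module
    rw [e1, norm_comb_of_add hp hq hpq2 (by linarith) (by linarith)]; ring
  obtain ⟨ψ, hψ, hψi⟩ := mf_functional hf
    ![((p, u) : E × F), (q, u), (l • p + (1 - l) • q, 0)] (by
      intro i
      fin_cases i
      · exact hPu
      · exact hQu
      · exact hA0) (by
      rw [Fin.sum_univ_three]
      have e2 : (![((p, u) : E × F), (q, u), (l • p + (1 - l) • q, 0)] 0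
          + ![((p, u) : E × F), (q, u), (l • p + (1 - l) • q, 0)] 1
          + ![((p, u) : E × F), (q, u), (l • p + (1 - l) • q, 0)] 2)
          = (p + q + (l • p + (1 - l) • q), u + u + 0) := rfl
      rw [e2, pnrm, hsum3]
      have h3 : ‖u + u + 0‖ ≤ 3 := by
        rw [add_zero]
        have := norm_add_le u u
        linarith
      rw [max_eq_left h3]
      simp)
  have ψp : ψ (f (p, u)) = 1 := (hψi 0).1
  have ψq : ψ (f (q, u)) = 1 := (hψi 1).1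
  have ψa : ψ (f (l • p + (1 - l) • q, 0)) = 1 := (hψi 2).1
  have ψy : ψ (l • f (p, u) + (1 - l) • f (q, u)) = 1 := by
    rw [map_add, map_smul, map_smul, ψp, ψq]
    simp
  have hny : ‖l • f (p, u) + (1 - l) • f (q, u)‖ = 1 := by
    apply le_antisymm
    · calc ‖l • f (p, u) + (1 - l) • f (q, u)‖ ≤ ‖l • f (p, u)‖ + ‖(1 - l) • f (q, u)‖ :=
            norm_add_le _ _
        _ = 1 := by
            rw [norm_smul, norm_smul, hf.norm _ hPu, hf.norm _ hQu, Real.norm_eq_abs,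
              Real.norm_eq_abs, abs_of_pos hl0, abs_of_pos hl1']
            ring
    · have h6 := hψ (l • f (p, u) + (1 - l) • f (q, u))
      rw [ψy] at h6
      exact h6
  obtain ⟨⟨e, v⟩, hz, hfz⟩ := hf.surj _ hny
  have hsum2 : ‖f (e, v) + f (l • p + (1 - l) • q, 0)‖ = 2 := by
    apply le_antisymm
    · have := norm_add_le (f (e, v)) (f (l • p + (1 - l) • q, 0))
      rw [hf.norm _ hz, hf.norm _ hA0] at this
      linarith
    · have := hψ (f (e, v) + f (l • p + (1 - l) • q, 0))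
      rw [map_add, ψa] at this
      have h5 : ψ (f (e, v)) = 1 := by rw [hfz]; exact ψy
      rw [h5] at this
      linarith
  have h2 := mf_F1_inv hf hz hA0 hsum2
  rw [Prod.mk_add_mk, pnrm, add_zero] at h2
  rw [pnrm] at hz
  have hv : ‖v‖ ≤ 1 := by rw [← hz]; exact le_max_right _ _
  have he1 : ‖e‖ ≤ 1 := by rw [← hz]; exact le_max_left _ _
  have hea : ‖e + (l • p + (1 - l) • q)‖ = 2 := by
    rcases max_cases ‖e + (l • p + (1 - l) • q)‖ ‖v‖ with ⟨h3, -⟩ | ⟨h3, -⟩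
    · rw [← h3]; exact h2
    · rw [h3] at h2; linarith
  have he : ‖e‖ = 1 := by
    apply le_antisymm he1
    have := norm_add_le e (l • p + (1 - l) • q)
    rw [hea, hna] at this
    linarith
  obtain ⟨β, hβ0, hβ1, heβ⟩ := hstar he (by rw [add_comm]; exact hea)
  have hz' : ‖((e, v) : E × F)‖ = 1 := by rw [pnrm]; exact hz
  have hd : 0 < ‖q - p‖ := by
    rw [norm_pos_iff, sub_ne_zero]; exact fun hh => hpq hh.symm
  have hqp : ‖f (q, u) - f (p, u)‖ = ‖q - p‖ := by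
    rw [hf.iso _ _ hQu hPu, pnrm_sub, sub_self, norm_zero]
    exact max_eq_left (norm_nonneg _)
  have k1 : β * ‖q - p‖ ≤ (1 - l) * ‖q - p‖ := by
    have e3 : ‖f (e, v) - f (p, u)‖ = (1 - l) * ‖q - p‖ := by
      rw [hfz]
      have : l • f (p, u) + (1 - l) • f (q, u) - f (p, u) = (1 - l) • (f (q, u) - f (p, u)) := by
        module
      rw [this, norm_smul, hqp, Real.norm_eq_abs, abs_of_pos hl1']
    rw [hf.iso _ _ hz' hPu, pnrm_sub] at e3
    have e4 : ‖e - p‖ = β * ‖q - p‖ := by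
      have : e - p = β • (q - p) := by rw [heβ]; module
      rw [this, norm_smul, Real.norm_eq_abs, abs_of_nonneg hβ0]
    rw [← e4, ← e3]; exact le_max_left _ _
  have k2 : (1 - β) * ‖q - p‖ ≤ l * ‖q - p‖ := by
    have e3 : ‖f (e, v) - f (q, u)‖ = l * ‖q - p‖ := by
      rw [hfz]
      have : l • f (p, u) + (1 - l) • f (q, u) - f (q, u) = (-l) • (f (q, u) - f (p, u)) := by
        module
      rw [this, norm_smul, hqp, Real.norm_eq_abs, abs_neg, abs_of_pos hl0]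
    rw [hf.iso _ _ hz' hQu, pnrm_sub] at e3
    have e4 : ‖e - q‖ = (1 - β) * ‖q - p‖ := by
      have : e - q = (-(1 - β)) • (q - p) := by rw [heβ]; module
      rw [this, norm_smul, Real.norm_eq_abs, abs_neg, abs_of_nonneg (by linarith)]
    rw [← e4, ← e3]; exact le_max_left _ _
  have k1' : β ≤ 1 - l := le_of_mul_le_mul_right k1 hd
  have k2' : 1 - β ≤ l := le_of_mul_le_mul_right k2 hd
  have hβ : β = 1 - l := by linarith
  have hea' : e = l • p + (1 - l) • q := by rw [heβ, hβ]; module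
  refine ⟨v, hv, ?_⟩
  rw [← hea', hfz, hyeq]

/-- WS10.  `v` from `seg_pt` at `u = 0`.  Suppose `v ≠ 0`, `u = -(‖v‖⁻¹ • v)`.
`‖f (a, v) - f (p, u)‖ = max ‖a - p‖ ‖v - u‖ ≥ ‖v - u‖ = 1 + ‖v‖`, while
`f (a, v) - f (p, u) = (1 - l) • (f (q, 0) - f (p, 0)) + A (-u)` has norm `max ((1 - l) ‖q - p‖) 1 = 1`
(`seg_norm`). -/
lemma seg_center {l : ℝ} (hl0 : 0 < l) (hl1 : l < 1) (hnear : (1 - l) * ‖q - p‖ ≤ 1) :
    f (l • p + (1 - l) • q, 0) = l • f (p, 0) + (1 - l) • f (q, 0) := by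
  obtain ⟨v, hv1, hv⟩ := seg_pt hf hodd h hA2 hp1 hq1 hl0 hl1 (u := 0) (by simp)
  rw [map_zero, add_zero] at hv
  suffices hv0 : v = 0 by rw [← hv, hv0]
  by_contra hv0
  have ha : ‖l • p + (1 - l) • q‖ = 1 := h.norm_pt hl0.le hl1.le
  have hvpos : 0 < ‖v‖ := norm_pos_iff.mpr hv0
  have hu : ‖-(‖v‖⁻¹ • v)‖ = 1 := by
    rw [norm_neg, norm_smul, norm_inv, norm_norm, inv_mul_cancel₀ hvpos.ne']
  have hiso := hf.iso (l • p + (1 - l) • q, v) (p, -(‖v‖⁻¹ • v)) (norm_face ha hv1)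
    (norm_face h.1 hu.le)
  rw [pnrm_sub] at hiso
  have hvu : ‖v - -(‖v‖⁻¹ • v)‖ = 1 + ‖v‖ := by
    have e : v - -(‖v‖⁻¹ • v) = (1 + ‖v‖⁻¹) • v := by rw [add_smul, one_smul, sub_neg_eq_add]
    have hinv : 0 < ‖v‖⁻¹ := inv_pos.mpr hvpos
    rw [e, norm_smul, Real.norm_eq_abs, abs_of_pos (by linarith)]
    field_simp
    ring
  have e : f (l • p + (1 - l) • q, v) - f (p, -(‖v‖⁻¹ • v)) =
      (1 - l) • (f (q, 0) - f (p, 0)) + A (‖v‖⁻¹ • v) := by
    rw [hv, hp1 _ hu.le, map_neg]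
    module
  rw [norm_neg] at hu
  rw [e, seg_norm hf hodd h hA2 hp1 hq1 (1 - l) (‖v‖⁻¹ • v), hu,
    abs_of_pos (by linarith), max_eq_right hnear, hvu] at hiso
  have := le_max_right ‖l • p + (1 - l) • q - p‖ (1 + ‖v‖)
  linarith

/-- WS11.  For a unit vector `u` take `v` from `seg_pt`.  For `‖u'‖ ≤ 1`:
`max ε ‖v - u'‖ = ‖f (a, v) - f (p, u')‖ = ‖(1 - l) • (f (q, 0) - f (p, 0)) + A (u - u')‖ = max ε ‖u - u'‖`,
`ε = (1 - l) ‖q - p‖ = ‖a - p‖` (`seg_norm`, `hf.iso`, `pnrm_sub`).  `sphere_determined`: `v = u`.  With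
`seg_center`: `f (a, u) = f (a, 0) + A u` for unit vectors `u`.  If `A'` is the map of `hL` then `A' u = A u`
for unit vectors, hence for all vectors (scale, as in `good_common`). -/
lemma seg_leaf {l : ℝ} (hl0 : 0 < l) (hl1 : l < 1) (hnear : (1 - l) * ‖q - p‖ < 1)
    (hL : LeafAff f (l • p + (1 - l) • q)) {u : F} (hu : ‖u‖ ≤ 1) :
    f (l • p + (1 - l) • q, u) = f (l • p + (1 - l) • q, 0) + A u := by
  have ha : ‖l • p + (1 - l) • q‖ = 1 := h.norm_pt hl0.le hl1.le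
  have hc := seg_center hf hodd h hA2 hp1 hq1 hl0 hl1 hnear.le
  have hap : ‖l • p + (1 - l) • q - p‖ = (1 - l) * ‖q - p‖ := by
    have e : l • p + (1 - l) • q - p = (1 - l) • (q - p) := by module
    rw [e, norm_smul, Real.norm_eq_abs, abs_of_pos (by linarith)]
  have unit : ∀ w : F, ‖w‖ = 1 →
      f (l • p + (1 - l) • q, w) = f (l • p + (1 - l) • q, 0) + A w := by
    intro w hw
    obtain ⟨v, hv1, hv⟩ := seg_pt hf hodd h hA2 hp1 hq1 hl0 hl1 (u := w) hw.le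
    have hvw : v = w := by
      refine sphere_determined hnear hw (fun u' hu' => ?_)
      have hiso := hf.iso (l • p + (1 - l) • q, v) (p, u') (norm_face ha hv1)
        (norm_face h.1 hu')
      rw [pnrm_sub, hap] at hiso
      have e : f (l • p + (1 - l) • q, v) - f (p, u') =
          (1 - l) • (f (q, 0) - f (p, 0)) + A (w - u') := by
        rw [hv, hp1 _ hu', map_sub]
        module
      rw [e, seg_norm hf hodd h hA2 hp1 hq1 (1 - l) (w - u'), abs_of_pos (by linarith)] at hiso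
      exact hiso.symm
    rw [← hvw, hv, hc, hvw]
  obtain ⟨A', hA'1, _⟩ := hL
  by_cases hu0 : u = 0
  · rw [hu0, map_zero, add_zero]
  have hnu : 0 < ‖u‖ := norm_pos_iff.mpr hu0
  have h1 : ‖‖u‖⁻¹ • u‖ = 1 := by
    rw [norm_smul, norm_inv, norm_norm, inv_mul_cancel₀ hnu.ne']
  have h2 : A' (‖u‖⁻¹ • u) = A (‖u‖⁻¹ • u) := by
    have e1 := hA'1 _ h1.le
    have e2 := unit _ h1
    rw [e1] at e2
    exact add_left_cancel e2
  rw [map_smul, map_smul] at h2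
  have h3 : A' u = A u := smul_right_injective W (inv_ne_zero hnu.ne') h2
  rw [hA'1 u hu, h3]

include hp3 hq3

/-- WS12.  `a = l • p + (1 - l) • q`.  `x` from `cyl_point` (with `seg_leaf`).  `cyl_split` and `SegFace.star`:
`(1 - t)⁻¹ • (a - x) = p + β • (q - p)`, so `x = t • a + μ • (q - p)` with `μ = (1 - t) (1 - l - β)`.
`‖x - t • p‖ = ‖f (x, s) - f (t • p, s)‖ = t ‖f (a, 0) - f (p, 0)‖ = t ‖a - p‖ = t (1 - l) ‖q - p‖` and
`x - t • p = (t (1 - l) + μ) • (q - p)`: `|t (1 - l) + μ| = t (1 - l)`.  In the same way with `q`: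
`|μ - t l| = t l`.  So `μ = 0` (the other solutions are `μ = -2 t (1 - l) < 0` and `μ = 2 t l > 0`). -/
lemma seg_side {l : ℝ} (hl0 : 0 < l) (hl1 : l < 1) (hnear : (1 - l) * ‖q - p‖ < 1)
    (hL : LeafAff f (l • p + (1 - l) • q)) {t : ℝ} (ht0 : 0 < t) (ht1 : t < 1) {s : F}
    (hs : ‖s‖ = 1) :
    f (t • (l • p + (1 - l) • q), s) = t • f (l • p + (1 - l) • q, 0) + A s := by
  have ha : ‖l • p + (1 - l) • q‖ = 1 := h.norm_pt hl0.le hl1.le
  have hp : ‖p‖ = 1 := h.1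
  have hq : ‖q‖ = 1 := h.2.1
  have hpq : q - p ≠ 0 := sub_ne_zero.mpr (Ne.symm h.2.2.1)
  have hpos : 0 < ‖q - p‖ := norm_pos_iff.mpr hpq
  have hA1 : ∀ u, ‖u‖ ≤ 1 → f (l • p + (1 - l) • q, u) = f (l • p + (1 - l) • q, 0) + A u :=
    fun u hu => seg_leaf hf hodd h hA2 hp1 hq1 hl0 hl1 hnear hL hu
  obtain ⟨x, hx1, hfx, hxa1, hxa2⟩ := cyl_point hf hodd ha A hA1 hA2 ht0 ht1 hs
  obtain ⟨c1, -, -, c4⟩ := cyl_split ha ht0 ht1 hxa1 hxa2
  obtain ⟨β, -, -, hβ⟩ := h.star hl0 hl1 c1 c4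
  have h1t : (1 - t) ≠ 0 := by linarith
  have hax : (l • p + (1 - l) • q) - x = (1 - t) • (p + β • (q - p)) := by
    rw [← hβ, smul_smul, mul_inv_cancel₀ h1t, one_smul]
  have hxk : x = t • p + ((1 - l) - (1 - t) * β) • (q - p) := by
    have : x = (l • p + (1 - l) • q) - (1 - t) • (p + β • (q - p)) := by
      rw [← hax]; abel
    rw [this]; module
  set κ : ℝ := (1 - l) - (1 - t) * β with hκ
  have nxs : ‖((x, s) : E × F)‖ = 1 := by
    rw [pnrm, hs]; exact max_eq_right hx1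
  have ntp : ‖((t • p, s) : E × F)‖ = 1 := by
    rw [pnrm, hs, norm_smul, hp, Real.norm_eq_abs, abs_of_pos ht0, mul_one]
    exact max_eq_right ht1.le
  have ntq : ‖((t • q, s) : E × F)‖ = 1 := by
    rw [pnrm, hs, norm_smul, hq, Real.norm_eq_abs, abs_of_pos ht0, mul_one]
    exact max_eq_right ht1.le
  have na0 : ‖((l • p + (1 - l) • q, 0) : E × F)‖ = 1 := by
    rw [pnrm, ha, norm_zero]; exact max_eq_left zero_le_one
  have np0 : ‖((p, 0) : E × F)‖ = 1 := by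
    rw [pnrm, hp, norm_zero]; exact max_eq_left zero_le_one
  have nq0 : ‖((q, 0) : E × F)‖ = 1 := by
    rw [pnrm, hq, norm_zero]; exact max_eq_left zero_le_one
  -- distance to `t • p`
  have e1 : |κ| * ‖q - p‖ = t * ((1 - l) * ‖q - p‖) := by
    have i1 := hf.iso _ _ nxs ntp
    have i2 := hf.iso _ _ na0 np0
    rw [pnrm_sub, sub_self, norm_zero] at i1 i2
    rw [max_eq_left (norm_nonneg _)] at i1 i2
    have d1 : f (x, s) - f (t • p, s)
        = t • (f (l • p + (1 - l) • q, 0) - f (p, 0)) := by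
      rw [hfx, hp3 t s ht0 ht1 hs]; module
    have d2 : x - t • p = κ • (q - p) := by rw [hxk]; module
    have d3 : (l • p + (1 - l) • q) - p = (1 - l) • (q - p) := by module
    rw [d1, d2, norm_smul, norm_smul, i2, d3, norm_smul, Real.norm_eq_abs, Real.norm_eq_abs,
      Real.norm_eq_abs, abs_of_pos ht0, abs_of_pos (by linarith : (0:ℝ) < 1 - l)] at i1
    exact i1.symm
  have e2 : |κ - t| * ‖q - p‖ = t * (l * ‖q - p‖) := by
    have i1 := hf.iso _ _ nxs ntq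
    have i2 := hf.iso _ _ na0 nq0
    rw [pnrm_sub, sub_self, norm_zero] at i1 i2
    rw [max_eq_left (norm_nonneg _)] at i1 i2
    have d1 : f (x, s) - f (t • q, s)
        = t • (f (l • p + (1 - l) • q, 0) - f (q, 0)) := by
      rw [hfx, hq3 t s ht0 ht1 hs]; module
    have d2 : x - t • q = (κ - t) • (q - p) := by rw [hxk]; module
    have d3 : (l • p + (1 - l) • q) - q = (-l) • (q - p) := by module
    rw [d1, d2, norm_smul, norm_smul, i2, d3, norm_smul, Real.norm_eq_abs, Real.norm_eq_abs,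
      Real.norm_eq_abs, abs_of_pos ht0, abs_neg, abs_of_pos hl0] at i1
    exact i1.symm
  have k1 : |κ| = t * (1 - l) := by
    have : |κ| * ‖q - p‖ = (t * (1 - l)) * ‖q - p‖ := by rw [e1]; ring
    exact mul_right_cancel₀ hpos.ne' this
  have k2 : |κ - t| = t * l := by
    have : |κ - t| * ‖q - p‖ = (t * l) * ‖q - p‖ := by rw [e2]; ring
    exact mul_right_cancel₀ hpos.ne' this
  have k3 : κ = t * (1 - l) := by
    rcases abs_eq (by nlinarith : (0:ℝ) ≤ t * (1 - l)) |>.mp k1 with hk | hk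
    · exact hk
    · exfalso
      have : κ - t < 0 := by rw [hk]; nlinarith
      rw [abs_of_neg this, hk] at k2
      nlinarith
  have hxt : x = t • (l • p + (1 - l) • q) := by
    rw [hxk, k3]; module
  rw [← hxt]; exact hfx

omit hA2 hp1 hq1 hp3 hq3 in
lemma seg_good (hLA : ∀ a : E, ‖a‖ = 1 → LeafAff f a) {l : ℝ} (hl0 : 0 < l) (hl1 : l < 1)
    (hnear : (1 - l) * ‖q - p‖ < 1) : GoodPt f (l • p + (1 - l) • q) := by
  have hp := h.1
  have hq := h.2.1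
  have gp : GoodPt f p := ext_good hf hodd hp h.ext (hLA p hp)
  have gq : GoodPt f q := ext_good hf hodd hq h.symm.ext (hLA q hq)
  obtain ⟨A, hA2, -, hall⟩ := good_common hf hp gp
  obtain ⟨hp1, hp3⟩ := hall p hp gp
  obtain ⟨hq1, hq3⟩ := hall q hq gq
  have hL := hLA _ (h.norm_pt hl0.le hl1.le)
  exact ⟨A, hA2, fun u hu => seg_leaf hf hodd h hA2 hp1 hq1 hl0 hl1 hnear hL hu,
    fun t s ht0 ht1 hs => seg_side hf hodd h hA2 hp1 hq1 hp3 hq3 hl0 hl1 hnear hL ht0 ht1 hs⟩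

omit hA2 hp1 hq1 hp3 hq3 in
/-- WS13.  `ℓ = ‖q - p‖ ≤ 2`.  Choose `l'` with `0 < l' < 1`, `l' ≠ 1/2`, `|l' - l| ℓ < δ` (for instance
`l' = l` if `l ≠ 1/2`, otherwise `l' = 1/2 + min (1/4) (δ / 8)`).  `a' = l' • p + (1 - l') • q`,
`a' - a = (l' - l) • (p - q)`.  If `l' > 1/2` then `(1 - l') ℓ < 1`: `seg_good`.  If `l' < 1/2` use `seg_good` for
`h.symm` and `1 - l'`: `(1 - l') • q + (1 - (1 - l')) • p = a'`, `(1 - (1 - l')) ‖p - q‖ < 1`. -/
lemma seg_dense (hLA : ∀ a : E, ‖a‖ = 1 → LeafAff f a) {l : ℝ} (hl0 : 0 < l) (hl1 : l < 1)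
    {δ : ℝ} (hδ : 0 < δ) :
    ∃ a' : E, ‖a'‖ = 1 ∧ ‖a' - (l • p + (1 - l) • q)‖ < δ ∧ GoodPt f a' := by
  have hp := h.1
  have hq := h.2.1
  have hℓ : ‖q - p‖ ≤ 2 := by
    have a1 := norm_sub_le q p
    rw [hp, hq] at a1
    linarith
  have hℓ' : ‖p - q‖ ≤ 2 := by rw [norm_sub_rev]; exact hℓ
  have good : ∀ l' : ℝ, 0 < l' → l' < 1 → l' ≠ 1 / 2 → GoodPt f (l' • p + (1 - l') • q) := by
    intro l' h0 h1 hne
    rcases lt_or_gt_of_ne hne with hlt | hgt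
    · have hnear : (1 - (1 - l')) * ‖p - q‖ < 1 := by
        have a1 : (1 - (1 - l')) * ‖p - q‖ ≤ (1 - (1 - l')) * 2 :=
          mul_le_mul_of_nonneg_left hℓ' (by linarith)
        linarith
      have g := seg_good hf hodd h.symm hLA (l := 1 - l') (by linarith) (by linarith) hnear
      have e : (1 - l') • q + (1 - (1 - l')) • p = l' • p + (1 - l') • q := by module
      rwa [e] at g
    · have hnear : (1 - l') * ‖q - p‖ < 1 := by
        have a1 : (1 - l') * ‖q - p‖ ≤ (1 - l') * 2 :=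
          mul_le_mul_of_nonneg_left hℓ (by linarith)
        linarith
      exact seg_good hf hodd h hLA h0 h1 hnear
  by_cases hl : l = 1 / 2
  · have hm0 : 0 < min (1 / 4 : ℝ) (δ / 8) := lt_min (by norm_num) (by positivity)
    have hm1 : min (1 / 4 : ℝ) (δ / 8) ≤ 1 / 4 := min_le_left _ _
    have hm2 : min (1 / 4 : ℝ) (δ / 8) ≤ δ / 8 := min_le_right _ _
    generalize min (1 / 4 : ℝ) (δ / 8) = m at hm0 hm1 hm2
    refine ⟨(1 / 2 + m) • p + (1 - (1 / 2 + m)) • q, h.norm_pt (by linarith) (by linarith), ?_,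
      good _ (by linarith) (by linarith) (by intro hh; linarith)⟩
    have e : (1 / 2 + m) • p + (1 - (1 / 2 + m)) • q - (l • p + (1 - l) • q) = m • (p - q) := by
      rw [hl]; module
    rw [e, norm_smul, Real.norm_eq_abs, abs_of_pos hm0]
    have a1 : m * ‖p - q‖ ≤ δ / 8 * 2 := mul_le_mul hm2 hℓ' (norm_nonneg _) (by positivity)
    linarith
  · exact ⟨_, h.norm_pt hl0.le hl1.le, by rw [sub_self, norm_zero]; exact hδ, good l hl0 hl1 hl⟩

end Vale.Agent.P084
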